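import Vale.Agent.P295.Final

/-! The fourfold is not affine four-space. -/

set_option linter.unusedSectionVars false
set_option linter.unusedSimpArgs false
set_option linter.unusedVariables false

namespace Vale.Agent.P295

open MvPolynomial

lemma Dn_mul_eq_zero {A : Type*} [CommRing A] [Algebra ℂ A] (D : Derivation ℂ A A) {a b : A}
    {k l : ℕ} (ha : Dn D k a = 0) (hb : Dn D l b = 0) : Dn D (k + l) (a * b) = 0 := by
  have h : PowerSeries.coeff (k + l) (expS D (a * b)) = 0 := by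
    rw [expS_mul, PowerSeries.coeff_mul]
    apply Finset.sum_eq_zero
    rintro ⟨i, j⟩ hij
    have hij' : i + j = k + l := by simpa using hij
    simp only [coeff_expS]
    by_cases h : k ≤ i
    · rw [Dn_eq_zero_of_le D ha h]; simp
    · rw [Dn_eq_zero_of_le D hb (by omega)]; simp
  rw [coeff_expS] at h
  have h1 : (((k + l).factorial : ℕ) : ℂ) ≠ 0 := by exact_mod_cast (k + l).factorial_ne_zero
  have := congrArg (fun z => (((k + l).factorial : ℕ) : ℂ) • z) h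
  simpa [smul_smul, mul_inv_cancel₀ h1] using this

lemma pderiv_nil (j : Fin 4) (a : MvPolynomial (Fin 4) ℂ) : ∃ k, Dn (pderiv j) k a = 0 := by
  induction a using MvPolynomial.induction_on with
  | C c => exact ⟨1, by simp [Dn_succ, Dn_zero]⟩
  | add p q hp hq =>
    obtain ⟨k, hk⟩ := hp
    obtain ⟨l, hl⟩ := hq
    exact ⟨k + l, by
      rw [map_add, Dn_eq_zero_of_le _ hk (by omega), Dn_eq_zero_of_le _ hl (by omega), add_zero]⟩
  | mul_X p i hp =>
    obtain ⟨k, hk⟩ := hp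
    refine ⟨k + 2, Dn_mul_eq_zero _ hk ?_⟩
    rw [Dn_succ, Dn_succ, Dn_zero, pderiv_X]
    by_cases h : j = i
    · subst h; simp
    · simp [Pi.single_apply, h]

lemma J_not_le : ¬ Le (wv ![-1, 0, 0, 0]) 0 (g1 5) := by
  intro h
  have h0 := h.pr_eq_zero (k := 2) (by norm_num)
  have hv := fun i => hm_yy ![-1, 0, 0, 0] i
  have e : g1 5 = yi 0 ^ 2 * (yy 1 ^ 3 - yy 2 ^ 2 - yy 1 ^ 2 * yy 3 ^ 3) - yy 0 * yy 3 := by
    simp only [g1, Matrix.cons_val]
    linear_combination (-(yi 0 ^ 2)) * s1_eq - yy 0 * yy 3 * p2_eq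
  have a1 : Hm (wv ![-1, 0, 0, 0]) 2 (yi 0 ^ 2 * (yy 1 ^ 3 - yy 2 ^ 2 - yy 1 ^ 2 * yy 3 ^ 3)) :=
    (((hm_yi ![-1, 0, 0, 0] 0).pow 2).mul
      (((((hv 1).pow 3).cast (k := 0) (by simp)).sub (((hv 2).pow 2).cast (by simp))).sub
        ((((hv 1).pow 2).mul ((hv 3).pow 3)).cast (by simp)))).cast (by simp)
  have a2 : Hm (wv ![-1, 0, 0, 0]) (-1) (yy 0 * yy 3) := ((hv 0).mul (hv 3)).cast (by simp)
  rw [e, map_sub, a1.pr_self, a2.pr_ne (by norm_num), sub_zero] at h0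
  have h1 := (mul_eq_zero.1 h0).resolve_left (pow_ne_zero 2 (yi_ne_zero 0))
  have h2 : (X 1 ^ 3 - X 2 ^ 2 - X 1 ^ 2 * X 3 ^ 3 : MvPolynomial (Fin 4) ℂ) = 0 := by
    apply aeval_yy_injective
    simpa using h1
  have := congrArg (eval (![0, 0, 1, 0] : Fin 4 → ℂ)) h2
  simp at this

theorem core (Γ : S6 →ₐ[ℂ] MvPolynomial (Fin 4) ℂ) (hΓ : Function.Surjective Γ)
    (h1 : Γ (rho1 - X 2) = 0) (h2 : Γ (rho2 - X 1 * X 0) = 0)
    (θ : MvPolynomial (Fin 4) ℂ →ₐ[ℂ] Lam) (hθ : ∀ P, θ (Γ P) = aeval g1 P) : False := by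
  classical
  -- a variable with a pole along `p = 0`
  obtain ⟨i, hi⟩ : ∃ i, ¬ Le (wv ![-1, 0, 0, 0]) 0 (θ (X i)) := by
    by_contra hcon
    push Not at hcon
    apply J_not_le
    have e : θ = aeval (fun i => θ (X i)) := by apply algHom_ext; intro i; simp
    have := aeval_mem_Le_zero _ hcon (Γ (X 5))
    rw [← e, hθ, aeval_X] at this
    exact this
  obtain ⟨j, hj⟩ := exists_ne i
  let Y : Fin 4 → S6 := ![X 1, X 2, X 1 ^ 2 * X 5 + X 3 * X 2, X 0]
  have hY : ∀ l, θ (Γ (Y l)) = yy l := by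
    intro l
    rw [hθ]
    fin_cases l
    · simp [Y, g1]
    · simp [Y, g1]
    · simpa [Y] using g1_T
    · simp [Y, g1]
  let d : Fin 4 → Lam := fun l => θ (pderiv j (Γ (Y l))) * yi l
  let G : Subalgebra ℂ (MvPolynomial (Fin 4) ℂ) :=
    { carrier := {a | derOf d (θ a) = θ (pderiv j a)}
      mul_mem' := by
        intro a b ha hb
        simp only [Set.mem_ofPred_eq] at ha hb ⊢
        simp only [map_mul, map_add, Derivation.leibniz, smul_eq_mul, ha, hb]
      add_mem' := by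
        intro a b ha hb
        simp only [Set.mem_ofPred_eq] at ha hb ⊢
        simp only [map_add, ha, hb]
      algebraMap_mem' := by
        intro c
        simp only [Set.mem_ofPred_eq]
        rw [AlgHom.commutes, Derivation.map_algebraMap, Derivation.map_algebraMap, map_zero] }
  have hG : ∀ a, a ∈ G ↔ derOf d (θ a) = θ (pderiv j a) := fun a => Iff.rfl
  have hcanc : ∀ a b, a ∈ G → θ a ≠ 0 → a * b ∈ G → b ∈ G := by
    intro a b ha h0 hab
    rw [hG] at ha hab ⊢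
    simp only [map_mul, map_add, Derivation.leibniz, smul_eq_mul, ha] at hab
    exact mul_left_cancel₀ h0 (add_right_cancel hab)
  have hYG : ∀ l, Γ (Y l) ∈ G := by
    intro l
    rw [hG, hY, derOf_yy]
    simp only [d]
    rw [mul_assoc, mul_comm (yi l), yy_mul_yi, mul_one]
  have mp : Γ (X 1) ∈ G := hYG 0
  have mx : Γ (X 2) ∈ G := hYG 1
  have mu : Γ (X 0) ∈ G := hYG 3
  obtain ⟨T, hT⟩ : ∃ T, T = Γ (X 1) ^ 2 * Γ (X 5) + Γ (X 3) * Γ (X 2) := ⟨_, rfl⟩
  have mT : T ∈ G := by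
    have := hYG 2
    simpa only [Y, Matrix.cons_val, map_add, map_mul, map_pow, ← hT] using this
  have np : θ (Γ (X 1) ^ 2) ≠ 0 := by
    rw [map_pow]; exact pow_ne_zero 2 (by rw [show θ (Γ (X 1)) = _ from hY 0]; exact yy_ne_zero 0)
  have nx : θ (Γ (X 2)) ≠ 0 := by rw [show θ (Γ (X 2)) = _ from hY 1]; exact yy_ne_zero 1
  simp only [rho1, map_sub, map_add, map_mul, map_pow] at h1
  simp only [rho2, map_sub, map_add, map_mul, map_pow, map_one, map_ofNat] at h2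
  have ms : Γ (X 3) ∈ G := by
    apply hcanc _ _ mx nx
    have : Γ (X 2) * Γ (X 3) = T ^ 2 + T + Γ (X 2) ^ 2 * Γ (X 0) ^ 3 + Γ (X 1) ^ 3 * Γ (X 0)
        - Γ (X 2) ^ 3 := by
      rw [hT]; linear_combination Γ (X 1) ^ 2 * h2 - Γ (X 2) ^ 2 * h1
    rw [this]
    exact sub_mem (add_mem (add_mem (add_mem (pow_mem mT 2) mT)
      (mul_mem (pow_mem mx 2) (pow_mem mu 3))) (mul_mem (pow_mem mp 3) mu)) (pow_mem mx 3)
  have mF : Γ (X 4) ∈ G := by
    apply hcanc _ _ (pow_mem mp 2) np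
    have : Γ (X 1) ^ 2 * Γ (X 4) = Γ (X 2) - Γ (X 0) ^ 3 - Γ (X 3) ^ 2 := by
      linear_combination h1
    rw [this]
    exact sub_mem (sub_mem mx (pow_mem mu 3)) (pow_mem ms 2)
  have mJ : Γ (X 5) ∈ G := by
    apply hcanc _ _ (pow_mem mp 2) np
    have : Γ (X 1) ^ 2 * Γ (X 5) = T - Γ (X 3) * Γ (X 2) := by rw [hT]; ring
    rw [this]
    exact sub_mem mT (mul_mem ms mx)
  have hall : ∀ a, derOf d (θ a) = θ (pderiv j a) := by
    intro a
    obtain ⟨P, rfl⟩ := hΓ a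
    rw [← hG]
    induction P using MvPolynomial.induction_on with
    | C c => rw [← algebraMap_eq, AlgHom.commutes]; exact G.algebraMap_mem c
    | add p q hp hq => rw [map_add]; exact add_mem hp hq
    | mul_X p l hp =>
      rw [map_mul]
      refine mul_mem hp ?_
      fin_cases l
      exacts [mu, mp, mx, ms, mF, mJ]
  have halln : ∀ k a, Dn (derOf d) k (θ a) = θ (Dn (pderiv j) k a) := by
    intro k a
    induction k with
    | zero => simp [Dn_zero]
    | succ k ih => rw [Dn_succ', Dn_succ', ih, hall]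
  have hd0 : ∃ l, d l ≠ 0 := by
    by_contra hcon
    push Not at hcon
    have := hall (X j)
    rw [derOf_apply] at this
    simp [hcon] at this
  obtain ⟨f, hf⟩ : ∃ f, f = θ (X i) := ⟨_, rfl⟩
  have hDf : derOf d f = 0 := by
    rw [hf, hall, pderiv_X]; simp [Pi.single_apply, hj]
  rw [← hf] at hi
  have hf0 : f ≠ 0 := by rintro rfl; exact hi (le_zero' _)
  -- choice of the weight
  obtain ⟨M1, hM1⟩ := exists_le (wv ![0, -6, 0, 4]) f
  obtain ⟨M2, hM2⟩ := exists_le (wv ![0, 6, 0, -4]) f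
  obtain ⟨N, hN⟩ : ∃ N : ℤ, N = 2 * (|M1| + |M2|) + 3 := ⟨_, rfl⟩
  have a1 := le_abs_self M1
  have a2 := le_abs_self M2
  have a3 := abs_nonneg M1
  have a4 := abs_nonneg M2
  have hN2 : 2 ≤ N := by omega
  have hNodd : Odd N := ⟨|M1| + |M2| + 1, by rw [hN]; ring⟩
  obtain ⟨n, hn, hn'⟩ := exists_top (wL N) hf0
  have hneg : ∀ m, (pr (wL N) n f).coeff m ≠ 0 → 1 ≤ wv ![-1, 0, 0, 0] m := by
    intro m hm
    obtain ⟨m0, hm0, hm0'⟩ : ∃ m0, f.coeff m0 ≠ 0 ∧ 0 < wv ![-1, 0, 0, 0] m0 := by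
      by_contra hcon
      push Not at hcon
      exact hi hcon
    have b1 : wL N m = n := pr_mem _ _ m hm
    have b2 : wv ![0, -6, 0, 4] m ≤ M1 := pr_mem_Sup n hM1 m hm
    have b3 : wL N m0 ≤ n := hn m0 hm0
    have b4 : wv ![0, 6, 0, -4] m0 ≤ M2 := hM2 m0 hm0
    simp [wL, wv_apply, Fin.sum_univ_four] at b1 b2 b3 b4 hm0' ⊢
    by_contra hcon
    have c1 : 0 ≤ m 0 := by omega
    have c2 : m0 0 ≤ -1 := by omega
    nlinarith
  obtain ⟨e, he, he'⟩ := exists_top_family (wL N) d hd0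
  obtain ⟨P0, hP0⟩ := hΓ (X i)
  have hfP : f = aeval g1 P0 := by rw [hf, ← hP0, hθ]
  obtain ⟨Q0, hQ0⟩ := sagbi hN2 n P0 (hfP ▸ hn)
  rw [← hfP] at hQ0
  obtain ⟨A, B, hAB⟩ : ∃ A B : S6, aeval g0 (A * X 4 + B * X 5) = pr (wL N) n f := by
    let s := (pr (wL N) n f).coeff.support.image (wv ![-1, 0, 0, 0])
    have hmem : ∑ k ∈ s, pr (Finsupp.weight ![0, -1, 0, 0, 2, 2]) k Q0 ∈
        Ideal.span (X '' ({4, 5} : Set (Fin 6))) := by
      apply Ideal.sum_mem
      intro k hk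
      obtain ⟨m', hm', rfl⟩ := Finset.mem_image.1 hk
      have hk1 := hneg m' (Finsupp.mem_support_iff.1 hm')
      rw [mem_ideal_span_X_image]
      intro m hm
      have h3 : Finsupp.weight ![0, -1, 0, 0, 2, 2] m = _ := pr_mem _ Q0 m (mem_support_iff.1 hm)
      rw [weight_six] at h3
      simp only [Matrix.cons_val] at h3
      by_contra hcon
      push Not at hcon
      have c4 := hcon 4 (by simp)
      have c5 := hcon 5 (by simp)
      rw [c4, c5] at h3
      omega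
    rw [Set.image_pair, Ideal.mem_span_pair] at hmem
    obtain ⟨A, B, hAB⟩ := hmem
    refine ⟨A, B, ?_⟩
    rw [hAB, map_sum, sum_pr (wv ![-1, 0, 0, 0]) (pr (wL N) n f)]
    refine Finset.sum_congr rfl fun k _ => ?_
    rw [← hQ0]
    symm
    apply aeval_pr
    intro l
    refine (hm_g0 (-1) 0 0 0 rfl (by norm_num) l).cast ?_
    fin_cases l <;> simp
  refine final_contra (e := e) hNodd (fun l => pr (wL N) e (d l)) (fun l => pr_mem _ _) he'
    ?_ ?_ A B (hAB ▸ hn') ?_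
  · intro l
    have t1 := top_g1 hN2 l
    have t2 := derOf_top (wL N) d e he t1.1
    obtain ⟨P, hP⟩ := hΓ (pderiv j (Γ (X l)))
    have t3 : derOf d (g1 l) = aeval g1 P := by
      rw [← hθ, hP, ← hall, hθ, aeval_X]
    rw [t3, t1.2] at t2
    obtain ⟨Q, hQ⟩ := sagbi hN2 _ P t2.1
    exact ⟨Q, by rw [hQ, t2.2]⟩
  · intro l
    obtain ⟨k, hk⟩ := pderiv_nil j (Γ (X l))
    have t1 := top_g1 hN2 l
    have t2 := (derOf_top_Dn (wL N) d e he k t1.1).2
    have t3 : Dn (derOf d) k (g1 l) = 0 := by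
      have := halln k (Γ (X l))
      rwa [hk, map_zero, hθ, aeval_X] at this
    rw [t3, t1.2, map_zero] at t2
    exact ⟨k, t2.symm⟩
  · rw [hAB, ← (derOf_top (wL N) d e he hn).2, hDf, map_zero]

end Vale.Agent.P295
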