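import Mathlib

/-! The exponential of a derivation as an algebra map to power series and polynomials. -/

set_option linter.unusedSectionVars false
set_option linter.unusedSimpArgs false
set_option linter.unusedVariables false

namespace Vale.Agent.P295

variable {A : Type*} [CommRing A] [Algebra ℂ A] (D : Derivation ℂ A A)

/-- iterated derivation -/
noncomputable def Dn (k : ℕ) : A →ₗ[ℂ] A := (D : A →ₗ[ℂ] A) ^ k

lemma Dn_zero (a : A) : Dn D 0 a = a := by simp [Dn]

lemma Dn_succ (k : ℕ) (a : A) : Dn D (k + 1) a = Dn D k (D a) := by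
  simp [Dn, pow_succ]

lemma Dn_succ' (k : ℕ) (a : A) : Dn D (k + 1) a = D (Dn D k a) := by
  simp [Dn, pow_succ']

lemma Dn_add (k l : ℕ) (a : A) : Dn D (k + l) a = Dn D k (Dn D l a) := by
  simp [Dn, pow_add]

lemma Dn_eq_zero_of_le {k l : ℕ} {a : A} (h : Dn D k a = 0) (hl : k ≤ l) : Dn D l a = 0 := by
  obtain ⟨m, rfl⟩ := Nat.exists_eq_add_of_le' hl
  rw [Dn_add, h, map_zero]

/-- the exponential series -/
noncomputable def expS (a : A) : PowerSeries A :=
  PowerSeries.mk fun k => ((k.factorial : ℂ)⁻¹) • Dn D k a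

lemma coeff_expS (a : A) (k : ℕ) :
    PowerSeries.coeff k (expS D a) = ((k.factorial : ℂ)⁻¹) • Dn D k a := by
  simp [expS]

lemma expS_add (a b : A) : expS D (a + b) = expS D a + expS D b := by
  ext k; simp [coeff_expS]

lemma deriv_expS (a : A) : PowerSeries.derivative A (expS D a) = expS D (D a) := by
  ext k
  rw [PowerSeries.coeff_derivative, coeff_expS, coeff_expS, Dn_succ]
  have h : ((k : A) + 1) = ((k : ℂ) + 1) • (1 : A) := by
    rw [← Algebra.algebraMap_eq_smul_one]; simp
  rw [h, mul_smul_comm, mul_one, smul_smul, Nat.factorial_succ]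
  congr 1
  have h1 : (k.factorial : ℂ) ≠ 0 := by exact_mod_cast k.factorial_ne_zero
  have h2 : ((k : ℂ) + 1) ≠ 0 := by exact_mod_cast k.succ_ne_zero
  push_cast
  field_simp

lemma cancel_succ (k : ℕ) {a b : A} (h : a * ((k : A) + 1) = b * ((k : A) + 1)) : a = b := by
  have h1 : ((k : A) + 1) = ((k : ℂ) + 1) • (1 : A) := by
    rw [← Algebra.algebraMap_eq_smul_one]; simp
  have h2 : ((k : ℂ) + 1) ≠ 0 := by exact_mod_cast k.succ_ne_zero
  rw [h1, mul_smul_comm, mul_smul_comm, mul_one, mul_one] at h
  have := congrArg (fun z => ((k : ℂ) + 1)⁻¹ • z) h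
  simpa [smul_smul, inv_mul_cancel₀ h2] using this

lemma expS_mul (a b : A) : expS D (a * b) = expS D a * expS D b := by
  ext n
  induction n generalizing a b with
  | zero => simp [expS, Dn_zero, PowerSeries.coeff_zero_eq_constantCoeff]
  | succ n ih =>
    apply cancel_succ n
    rw [← PowerSeries.coeff_derivative, ← PowerSeries.coeff_derivative, deriv_expS,
      Derivation.leibniz, Derivation.leibniz, expS_add, map_add, map_add, smul_eq_mul, smul_eq_mul,
      smul_eq_mul, smul_eq_mul, ih, ih, deriv_expS, deriv_expS]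

lemma expS_algebraMap (c : ℂ) : expS D (algebraMap ℂ A c) = algebraMap ℂ (PowerSeries A) c := by
  ext k
  rw [coeff_expS]
  cases k with
  | zero => simp [Dn_zero, PowerSeries.algebraMap_apply]
  | succ k => simp [Dn_succ, PowerSeries.algebraMap_apply, PowerSeries.coeff_C]

/-- the exponential as an algebra map -/
noncomputable def expHom : A →ₐ[ℂ] PowerSeries A where
  toFun := expS D
  map_one' := by simpa using expS_algebraMap D 1
  map_mul' := expS_mul D
  map_zero' := by simpa using expS_algebraMap D 0
  map_add' := expS_add D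
  commutes' := expS_algebraMap D

/-- On a locally nilpotent family the exponential is polynomial. -/
lemma exists_expPoly {ι : Type*} (g : ι → A) (hg : ∀ i, ∃ k, Dn D k (g i) = 0) :
    ∃ ε : MvPolynomial ι ℂ →ₐ[ℂ] Polynomial A, ∀ P k,
      (ε P).coeff k = ((k.factorial : ℂ)⁻¹) • Dn D k (MvPolynomial.aeval g P) := by
  choose N hN using hg
  let q : ι → Polynomial A := fun i => PowerSeries.trunc (N i) (expS D (g i))
  have hq : ∀ i, ((q i : Polynomial A) : PowerSeries A) = expS D (g i) := by
    intro i
    ext k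
    rw [Polynomial.coeff_coe, PowerSeries.coeff_trunc]
    split_ifs with h
    · rfl
    · rw [coeff_expS, Dn_eq_zero_of_le D (hN i) (by omega), smul_zero]
  refine ⟨MvPolynomial.aeval q, fun P k => ?_⟩
  have key : ((MvPolynomial.aeval q P : Polynomial A) : PowerSeries A) =
      expS D (MvPolynomial.aeval g P) := by
    induction P using MvPolynomial.induction_on with
    | C c =>
      rw [MvPolynomial.aeval_C, MvPolynomial.aeval_C, expS_algebraMap]
      simp [Polynomial.algebraMap_apply, PowerSeries.algebraMap_apply]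
    | add p q hp hq => rw [map_add, map_add, Polynomial.coe_add, hp, hq, expS_add]
    | mul_X p i hp =>
      rw [map_mul, map_mul, Polynomial.coe_mul, hp, expS_mul, MvPolynomial.aeval_X,
        MvPolynomial.aeval_X, hq]
  rw [← Polynomial.coeff_coe, key, coeff_expS]

end Vale.Agent.P295
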