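import Vale.Agent.P295.Grade
import Vale.Agent.P295.Exp

/-! Derivations of a Laurent polynomial ring and their leading parts. -/

set_option linter.unusedSectionVars false
set_option linter.unusedSimpArgs false
set_option linter.unusedVariables false

namespace Vale.Agent.P295

open AddMonoidAlgebra

section
variable {M : Type*} [AddCommMonoid M]

/-- the linear map multiplying the coefficient at `m` by `φ m` -/
noncomputable def eulL (φ : M →+ ℤ) : AddMonoidAlgebra ℂ M →ₗ[ℂ] AddMonoidAlgebra ℂ M where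
  toFun a := ofCoeff (Finsupp.onFinset a.coeff.support (fun m => (φ m : ℂ) * a.coeff m)
    (fun m hm => Finsupp.mem_support_iff.2 (fun h => hm (by simp [h]))))
  map_add' a b := by ext m; simp [mul_add]
  map_smul' c a := by ext m; simp; ring

lemma coeff_eulL (φ : M →+ ℤ) (a : AddMonoidAlgebra ℂ M) (m : M) :
    (eulL φ a).coeff m = (φ m : ℂ) * a.coeff m := by simp [eulL]

lemma eulL_single (φ : M →+ ℤ) (m : M) (c : ℂ) :
    eulL φ (single m c) = (φ m : ℂ) • single m c := by
  classical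
  ext k
  rw [coeff_eulL]
  by_cases h : m = k
  · subst h; simp
  · simp [Finsupp.single_apply, h]

/-- the Euler derivation -/
noncomputable def eul (φ : M →+ ℤ) :
    Derivation ℂ (AddMonoidAlgebra ℂ M) (AddMonoidAlgebra ℂ M) :=
  Derivation.mk' (eulL φ) (by
    intro a b
    induction a using AddMonoidAlgebra.induction_linear with
    | zero => simp
    | add a a' ha ha' => simp only [add_mul, map_add, ha, ha', smul_eq_mul]; ring
    | single m c =>
      induction b using AddMonoidAlgebra.induction_linear with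
      | zero => simp
      | add b b' hb hb' => simp only [mul_add, map_add, hb, hb', smul_eq_mul]; ring
      | single k e =>
        rw [single_mul_single, eulL_single, eulL_single, eulL_single, smul_eq_mul, smul_eq_mul,
          mul_smul_comm, mul_smul_comm, single_mul_single, single_mul_single, map_add,
          add_comm k m, mul_comm e c]
        push_cast
        rw [add_smul, add_comm])

lemma eul_apply (φ : M →+ ℤ) (a : AddMonoidAlgebra ℂ M) : eul φ a = eulL φ a := rfl

lemma eul_mem_Sup (φ : M →+ ℤ) {P : M → Prop} {a : AddMonoidAlgebra ℂ M} (ha : a ∈ Sup P) :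
    eul φ a ∈ Sup P := by
  intro m hm
  rw [eul_apply, coeff_eulL] at hm
  exact ha m (right_ne_zero_of_mul hm)

lemma pr_eul (φ w : M →+ ℤ) (n : ℤ) (a : AddMonoidAlgebra ℂ M) :
    pr w n (eul φ a) = eul φ (pr w n a) := by
  ext m
  rw [coeff_pr, eul_apply, eul_apply, coeff_eulL, coeff_eulL, coeff_pr]
  split_ifs <;> simp

end

/-- Laurent polynomials in four variables -/
abbrev Lam := AddMonoidAlgebra ℂ (Fin 4 → ℤ)

/-- the variables -/
noncomputable def yy (i : Fin 4) : Lam := single (Pi.single i 1) 1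

/-- the inverses of the variables -/
noncomputable def yi (i : Fin 4) : Lam := single (-Pi.single i 1) 1

lemma yy_mul_yi (i : Fin 4) : yy i * yi i = 1 := by
  rw [yy, yi, single_mul_single]; simp [AddMonoidAlgebra.one_def]

lemma yy_ne_zero (i : Fin 4) : yy i ≠ 0 := left_ne_zero_of_mul_eq_one (yy_mul_yi i)

lemma yi_ne_zero (i : Fin 4) : yi i ≠ 0 := right_ne_zero_of_mul_eq_one (yy_mul_yi i)

/-- the weight with values `c i` on the variables -/
def wv (c : Fin 4 → ℤ) : (Fin 4 → ℤ) →+ ℤ where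
  toFun m := ∑ i, c i * m i
  map_zero' := by simp
  map_add' a b := by simp [mul_add, Finset.sum_add_distrib]

lemma wv_apply (c m : Fin 4 → ℤ) : wv c m = ∑ i, c i * m i := rfl

lemma hm_yy (c : Fin 4 → ℤ) (i : Fin 4) : Hm (wv c) (c i) (yy i) :=
  (hm_single _ _).cast (by simp [wv_apply, Pi.single_apply])

lemma hm_yi (c : Fin 4 → ℤ) (i : Fin 4) : Hm (wv c) (-c i) (yi i) :=
  (hm_single _ _).cast (by simp [wv_apply, Pi.single_apply])

/-- the derivation with `D (yy i) = d i * yy i` -/
noncomputable def derOf (d : Fin 4 → Lam) : Derivation ℂ Lam Lam :=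
  ∑ i, d i • eul (Pi.evalAddMonoidHom (fun _ => ℤ) i)

lemma derOf_apply (d : Fin 4 → Lam) (a : Lam) :
    derOf d a = ∑ i, d i * eul (Pi.evalAddMonoidHom (fun _ => ℤ) i) a := by
  simp only [derOf, Fin.sum_univ_four, Derivation.add_apply, Derivation.smul_apply, smul_eq_mul]

lemma derOf_yy (d : Fin 4 → Lam) (j : Fin 4) : derOf d (yy j) = d j * yy j := by
  rw [derOf_apply, Finset.sum_eq_single j]
  · rw [eul_apply, yy, eulL_single]; simp
  · intro i _ hij
    rw [eul_apply, yy, eulL_single]; simp [Pi.single_apply, hij]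
  · simp

lemma derOf_top (w : (Fin 4 → ℤ) →+ ℤ) (d : Fin 4 → Lam) (e : ℤ) (hd : ∀ i, Le w e (d i))
    {n : ℤ} {a : Lam} (ha : Le w n a) :
    Le w (n + e) (derOf d a) ∧
      pr w (n + e) (derOf d a) = derOf (fun i => pr w e (d i)) (pr w n a) := by
  rw [derOf_apply, derOf_apply, map_sum, add_comm n e]
  refine ⟨Le.sum fun i _ => (hd i).mul (eul_mem_Sup _ ha), Finset.sum_congr rfl fun i _ => ?_⟩
  rw [pr_mul (hd i) (eul_mem_Sup _ ha), pr_eul]

lemma derOf_top_Dn (w : (Fin 4 → ℤ) →+ ℤ) (d : Fin 4 → Lam) (e : ℤ) (hd : ∀ i, Le w e (d i))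
    (k : ℕ) {n : ℤ} {a : Lam} (ha : Le w n a) :
    Le w (n + k * e) (Dn (derOf d) k a) ∧
      pr w (n + k * e) (Dn (derOf d) k a) =
        Dn (derOf (fun i => pr w e (d i))) k (pr w n a) := by
  induction k with
  | zero => simpa [Dn_zero] using ha
  | succ k ih =>
    rw [Dn_succ', Dn_succ', ← ih.2]
    have e1 : n + ((k + 1 : ℕ) : ℤ) * e = n + k * e + e := by push_cast; ring
    rw [e1]
    exact derOf_top w d e hd ih.1

lemma derOf_hm (w : (Fin 4 → ℤ) →+ ℤ) (d : Fin 4 → Lam) (e : ℤ) (hd : ∀ i, Hm w e (d i))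
    {n : ℤ} {a : Lam} (ha : Hm w n a) : Hm w (n + e) (derOf d a) := by
  rw [derOf_apply, add_comm n e]
  exact Hm.sum fun i _ => (hd i).mul (eul_mem_Sup _ ha)

lemma derOf_hm_Dn (w : (Fin 4 → ℤ) →+ ℤ) (d : Fin 4 → Lam) (e : ℤ) (hd : ∀ i, Hm w e (d i))
    (k : ℕ) {n : ℤ} {a : Lam} (ha : Hm w n a) : Hm w (n + k * e) (Dn (derOf d) k a) := by
  induction k with
  | zero => simpa [Dn_zero] using ha
  | succ k ih =>
    rw [Dn_succ']
    exact (derOf_hm w d e hd ih).cast (by push_cast; ring)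

lemma exists_top_family (w : (Fin 4 → ℤ) →+ ℤ) (d : Fin 4 → Lam) (hd : ∃ i, d i ≠ 0) :
    ∃ e, (∀ i, Le w e (d i)) ∧ ∃ i, pr w e (d i) ≠ 0 := by
  classical
  have hne : (Finset.univ.filter fun i => d i ≠ 0).Nonempty := by
    obtain ⟨i, hi⟩ := hd
    exact ⟨i, by simpa using hi⟩
  have hch : ∀ i, ∃ n, d i ≠ 0 → Le w n (d i) ∧ pr w n (d i) ≠ 0 := by
    intro i
    by_cases h : d i = 0
    · exact ⟨0, fun h' => absurd h h'⟩
    · obtain ⟨n, hn⟩ := exists_top w h
      exact ⟨n, fun _ => hn⟩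
  choose n hn using hch
  obtain ⟨j, hj, hmax⟩ := Finset.exists_max_image _ n hne
  have hj' : d j ≠ 0 := by simpa using hj
  refine ⟨n j, fun i => ?_, j, (hn j hj').2⟩
  by_cases h : d i = 0
  · rw [h]; exact le_zero' _
  · exact (hn i h).1.mono (hmax i (by simpa using h))

lemma aeval_yy_injective :
    Function.Injective (MvPolynomial.aeval yy : MvPolynomial (Fin 4) ℂ →ₐ[ℂ] Lam) := by
  let f : (Fin 4 →₀ ℕ) →+ (Fin 4 → ℤ) :=
    { toFun := fun m i => (m i : ℤ)
      map_zero' := by ext; simp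
      map_add' := fun a b => by ext; simp }
  have hf : Function.Injective f := by
    intro a b h
    ext i
    have := congrFun h i
    simpa [f] using this
  have e : (MvPolynomial.aeval yy : MvPolynomial (Fin 4) ℂ →ₐ[ℂ] Lam) =
      AddMonoidAlgebra.mapDomainAlgHom ℂ ℂ f := by
    apply MvPolynomial.algHom_ext
    intro i
    rw [MvPolynomial.aeval_X]
    change _ = AddMonoidAlgebra.mapDomain f (single (Finsupp.single i 1) 1)
    rw [AddMonoidAlgebra.mapDomain_single, yy]
    congr 1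
    ext j
    simp [f, Pi.single_apply, Finsupp.single_apply, eq_comm]
  rw [e]
  exact AddMonoidAlgebra.mapDomain_injective hf

lemma not_sq (v : FractionRing Lam) :
    v ^ 2 ≠ -(algebraMap Lam (FractionRing Lam) (yy 3)) ^ 3 := by
  intro h
  obtain ⟨a, b, hb, rfl⟩ := IsFractionRing.div_surjective (A := Lam) v
  have hb0 : b ≠ 0 := nonZeroDivisors.ne_zero hb
  have hb1 : algebraMap Lam (FractionRing Lam) b ≠ 0 :=
    IsFractionRing.to_map_ne_zero_of_mem_nonZeroDivisors hb
  have h2 : a * a = -(yy 3) ^ 3 * (b * b) := by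
    apply IsFractionRing.injective Lam (FractionRing Lam)
    simp only [map_mul, map_neg, map_pow]
    field_simp at h
    linear_combination h
  have ha0 : a ≠ 0 := by
    rintro rfl
    have := mul_ne_zero (neg_ne_zero.2 (pow_ne_zero 3 (yy_ne_zero 3))) (mul_ne_zero hb0 hb0)
    exact this (by rw [← h2]; simp)
  obtain ⟨n, hn, hn'⟩ := exists_top (wv ![0, 0, 0, 1]) ha0
  obtain ⟨k, hk, hk'⟩ := exists_top (wv ![0, 0, 0, 1]) hb0
  have hu : Hm (wv ![0, 0, 0, 1]) 3 (-(yy 3) ^ 3) :=
    ((hm_yy ![0, 0, 0, 1] 3).pow 3).neg.cast (by simp)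
  have e1 : n + n = 3 + (k + k) := by
    apply top_unique (hn.mul hn) (by rw [pr_mul hn hn]; exact mul_ne_zero hn' hn')
    · rw [h2]; exact (hu.le le_rfl).mul (hk.mul hk)
    · rw [h2, pr_hm_mul hu, pr_mul hk hk]
      exact mul_ne_zero (neg_ne_zero.2 (pow_ne_zero 3 (yy_ne_zero 3))) (mul_ne_zero hk' hk')
  omega

end Vale.Agent.P295
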