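import Mathlib

/-! The polynomial-curve analysis, by the Mason–Stothers theorem. -/

set_option linter.unusedSectionVars false
set_option linter.unusedSimpArgs false
set_option linter.unusedVariables false

namespace Vale.Agent.P295

open Polynomial

variable {L : Type*} [Field L] [CharZero L]

lemma abc' {a b c z : L[X]} (ha : a ≠ 0) (hb : b ≠ 0) (hc : c ≠ 0) (hz : z ≠ 0)
    (hab : IsCoprime a b) (hsum : a + b + c = 0) (hd : ∃ n, a * b * c ∣ z ^ n) :
    (natDegree a + 1 ≤ natDegree z ∧ natDegree b + 1 ≤ natDegree z) ∨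
      (natDegree a = 0 ∧ natDegree b = 0 ∧ natDegree c = 0) := by
  classical
  have h1 := (UniqueFactorizationMonoid.exists_dvd_pow_iff_radical_dvd
    (mul_ne_zero (mul_ne_zero ha hb) hc)).1 hd
  have h2 := natDegree_le_of_dvd h1 hz
  rcases Polynomial.abc ha hb hc hab hsum with h | h
  · left; exact ⟨h.1.trans h2, h.2.1.trans h2⟩
  · right
    exact ⟨derivative_eq_zero.1 h.1,
      derivative_eq_zero.1 h.2.1,
      derivative_eq_zero.1 h.2.2⟩

lemma coprime_of_sum_C {a b : L[X]} {c : L} (hc : c ≠ 0) (h : a + b + C c = 0) :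
    IsCoprime a b := by
  refine ⟨C (-c⁻¹), C (-c⁻¹), ?_⟩
  have h1 : a + b = - C c := by linear_combination h
  rw [← mul_add, h1, map_neg, neg_mul_neg, ← map_mul, inv_mul_cancel₀ hc, map_one]

lemma mason_const {a y U : L[X]} {c : L} (hc : c ≠ 0) (ha : a ≠ 0) (hy : y ≠ 0) (hU : U ≠ 0)
    (h : a ^ 2 + y ^ 2 * U ^ 3 + C c = 0) :
    natDegree a = 0 ∧ natDegree y = 0 ∧ natDegree U = 0 := by
  have hC : (C c : L[X]) ≠ 0 := by simpa using hc
  have := abc' (z := a * y * U) (pow_ne_zero 2 ha) (mul_ne_zero (pow_ne_zero 2 hy) (pow_ne_zero 3 hU))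
    hC (mul_ne_zero (mul_ne_zero ha hy) hU) (coprime_of_sum_C hc h) h
    ⟨3, ⟨a * y * C c⁻¹, by
      have : (C c : L[X]) * C c⁻¹ = 1 := by rw [← map_mul, mul_inv_cancel₀ hc, map_one]
      linear_combination (-(a ^ 3 * y ^ 3 * U ^ 3)) * this⟩⟩
  rw [natDegree_mul (mul_ne_zero ha hy) hU, natDegree_mul ha hy,
    natDegree_mul (pow_ne_zero 2 hy) (pow_ne_zero 3 hU), natDegree_pow, natDegree_pow,
    natDegree_pow] at this
  omega

lemma mason_lin {a y U P : L[X]} {c : L} (hc : c ≠ 0) (ha : a ≠ 0) (hy : y ≠ 0) (hU : U ≠ 0)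
    (hP : natDegree P = 1) (hay : IsCoprime a y)
    (hsq : ∀ v : L, v ^ 2 ≠ -(U.coeff 0) ^ 3)
    (h : a ^ 2 + y ^ 2 * U ^ 3 + C c * P ^ 2 = 0) : False := by
  have hC : (C c : L[X]) ≠ 0 := by simpa using hc
  have hCC : (C c : L[X]) * C c⁻¹ = 1 := by rw [← map_mul, mul_inv_cancel₀ hc, map_one]
  have hP0 : P ≠ 0 := by rintro rfl; simp at hP
  have hdeg : P.degree = 1 := by rw [degree_eq_natDegree hP0, hP]; rfl
  have hirr : Irreducible P := irreducible_of_degree_eq_one hdeg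
  obtain ⟨τ, hτ⟩ := exists_root_of_degree_eq_one hdeg
  have hτ' : P.eval τ = 0 := hτ
  have hev : a.eval τ ^ 2 + y.eval τ ^ 2 * U.eval τ ^ 3 = 0 := by
    have := congrArg (eval τ) h
    simpa [hτ'] using this
  have hyτ : y.eval τ ≠ 0 := by
    intro h0
    have ha0 : a.eval τ = 0 := by
      rw [h0] at hev
      simpa using hev
    obtain ⟨α, β, hαβ⟩ := hay
    have := congrArg (eval τ) hαβ
    simp [h0, ha0] at this
  have hdvd : ∀ q : L[X], q.eval τ = 0 → P ∣ q := by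
    intro q hq
    by_contra hn
    obtain ⟨α, β, hαβ⟩ := (hirr.coprime_iff_not_dvd).2 hn
    have := congrArg (eval τ) hαβ
    simp [hq, hτ'] at this
  by_cases haτ : a.eval τ = 0
  · have hUτ : U.eval τ = 0 := by
      rw [haτ] at hev
      simpa [hyτ] using hev
    obtain ⟨a', rfl⟩ := hdvd a haτ
    obtain ⟨U', rfl⟩ := hdvd U hUτ
    have ha' : a' ≠ 0 := by rintro rfl; simp at ha
    have hU' : U' ≠ 0 := by rintro rfl; simp at hU
    have h' : a' ^ 2 + y ^ 2 * P * U' ^ 3 + C c = 0 := by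
      apply mul_left_cancel₀ (pow_ne_zero 2 hP0)
      linear_combination h
    have := abc' (z := a' * y * P * U') (pow_ne_zero 2 ha')
      (mul_ne_zero (mul_ne_zero (pow_ne_zero 2 hy) hP0) (pow_ne_zero 3 hU'))
      hC (mul_ne_zero (mul_ne_zero (mul_ne_zero ha' hy) hP0) hU') (coprime_of_sum_C hc h') h'
      ⟨3, ⟨a' * y * P ^ 2 * C c⁻¹, by
        linear_combination (-(a' ^ 3 * y ^ 3 * P ^ 3 * U' ^ 3)) * hCC⟩⟩
    rw [natDegree_mul (mul_ne_zero (mul_ne_zero ha' hy) hP0) hU',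
      natDegree_mul (mul_ne_zero ha' hy) hP0, natDegree_mul ha' hy,
      natDegree_mul (mul_ne_zero (pow_ne_zero 2 hy) hP0) (pow_ne_zero 3 hU'),
      natDegree_mul (pow_ne_zero 2 hy) hP0, natDegree_pow, natDegree_pow,
      natDegree_pow] at this
    omega
  · have hPa : IsCoprime P a := (hirr.coprime_iff_not_dvd).2 (by
      rintro ⟨q, rfl⟩
      simp [hτ'] at haτ)
    have hco : IsCoprime (a ^ 2) (y ^ 2 * U ^ 3) := by
      have h1 : IsCoprime (a ^ 2) (P ^ 2) := hPa.symm.pow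
      obtain ⟨α, β, hαβ⟩ := h1
      refine ⟨α - β * C c⁻¹, - β * C c⁻¹, ?_⟩
      linear_combination hαβ - β * C c⁻¹ * h + β * P ^ 2 * hCC
    have := abc' (z := a * y * U * P) (pow_ne_zero 2 ha)
      (mul_ne_zero (pow_ne_zero 2 hy) (pow_ne_zero 3 hU))
      (mul_ne_zero hC (pow_ne_zero 2 hP0))
      (mul_ne_zero (mul_ne_zero (mul_ne_zero ha hy) hU) hP0) hco h
      ⟨3, ⟨a * y * P * C c⁻¹, by
        linear_combination (-(a ^ 3 * y ^ 3 * P ^ 3 * U ^ 3)) * hCC⟩⟩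
    rw [natDegree_mul (mul_ne_zero (mul_ne_zero ha hy) hU) hP0,
      natDegree_mul (mul_ne_zero ha hy) hU, natDegree_mul ha hy,
      natDegree_mul (pow_ne_zero 2 hy) (pow_ne_zero 3 hU),
      natDegree_mul hC (pow_ne_zero 2 hP0), natDegree_pow, natDegree_pow,
      natDegree_pow, natDegree_pow] at this
    have hU0 : natDegree U = 0 := by omega
    have hUc : U.eval τ = U.coeff 0 := by
      conv_lhs => rw [eq_C_of_natDegree_eq_zero hU0]
      simp
    apply hsq (a.eval τ / y.eval τ)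
    rw [← hUc]
    field_simp
    linear_combination hev

/-- The analysis of polynomial curves on the degenerate variety. -/
lemma mason_core {P Y S U F J A B : L[X]} {c : L} (hc : c ≠ 0)
    (hP : P ≠ 0) (hY : Y ≠ 0) (hU : U ≠ 0) (hT : P ^ 2 * J + S * Y ≠ 0)
    (h1 : U ^ 3 + S ^ 2 + P ^ 2 * F = 0)
    (h2 : Y ^ 2 * F - (1 + 2 * S * Y) * J - P ^ 2 * J ^ 2 = 0)
    (hdeg : natDegree P ≤ 1) (hAB : A * F + B * J = C c)
    (hsq : ∀ v : L, v ^ 2 ≠ -(U.coeff 0) ^ 3) :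
    natDegree P = 0 ∧ natDegree U = 0 ∧ ∃ σ : L, P ^ 2 * J + S * Y = C σ * Y := by
  classical
  obtain ⟨T, hTdef⟩ : ∃ T, T = P ^ 2 * J + S * Y := ⟨_, rfl⟩
  rw [← hTdef] at hT ⊢
  have hQ : T * (T + 1) = Y * (S - Y * U ^ 3) := by
    rw [hTdef]
    linear_combination (-(P ^ 2)) * h2 + Y ^ 2 * h1
  obtain ⟨y, a, hy, ha, hu⟩ := extract_gcd Y T
  obtain ⟨x0, hx0⟩ : ∃ x0, x0 = gcd Y T := ⟨_, rfl⟩
  rw [← hx0] at hy ha
  have hya : IsCoprime y a := (gcd_isUnit_iff y a).1 hu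
  have hx0ne : x0 ≠ 0 := by rintro rfl; simp at hy; exact hY hy
  have hyne : y ≠ 0 := by rintro rfl; simp at hy; exact hY hy
  have hane : a ≠ 0 := by rintro rfl; simp at ha; exact hT ha
  have h3 : a * (T + 1) = y * (S - Y * U ^ 3) := by
    apply mul_left_cancel₀ hx0ne
    linear_combination hQ - (T + 1) * ha + (S - Y * U ^ 3) * hy
  obtain ⟨b, hb⟩ : y ∣ T + 1 := hya.dvd_of_dvd_mul_left ⟨_, h3⟩
  have hS : S - Y * U ^ 3 = a * b := by
    apply mul_left_cancel₀ hyne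
    linear_combination -h3 + a * hb
  have hdet : y * b - x0 * a = 1 := by linear_combination -hb + ha
  obtain ⟨l, hl⟩ : ∃ l, l = a ^ 2 + y ^ 2 * U ^ 3 := ⟨_, rfl⟩
  have hS' : S = a * b + x0 * y * U ^ 3 := by linear_combination hS + U ^ 3 * hy
  have hJ : P ^ 2 * J = - x0 ^ 2 * l := by
    have : P ^ 2 * J = T - S * Y := by rw [hTdef]; ring
    rw [this, ha, hS', hy, hl]
    linear_combination (-(x0 * a)) * hdet
  have hF : P ^ 2 * F = - (b ^ 2 + x0 ^ 2 * U ^ 3) * l := by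
    have : P ^ 2 * F = - (U ^ 3 + S ^ 2) := by linear_combination h1
    rw [this, hS', hl]
    linear_combination (U ^ 3 * (y * b - x0 * a + 1)) * hdet
  have hco : IsCoprime (x0 ^ 2) (b ^ 2) := by
    have : IsCoprime x0 b := ⟨-a, y, by linear_combination hdet⟩
    exact this.pow
  obtain ⟨α, β, hαβ⟩ := hco
  obtain ⟨r, hr⟩ : ∃ r, r = (α - β * U ^ 3) * J + β * F := ⟨_, rfl⟩
  have hlr : l = - P ^ 2 * r := by
    rw [hr]
    linear_combination (α - β * U ^ 3) * hJ + β * hF - l * hαβ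
  have hJr : J = x0 ^ 2 * r := by
    apply mul_left_cancel₀ (pow_ne_zero 2 hP)
    rw [hJ, hlr]; ring
  have hFr : F = (b ^ 2 + x0 ^ 2 * U ^ 3) * r := by
    apply mul_left_cancel₀ (pow_ne_zero 2 hP)
    rw [hF, hlr]; ring
  have hru : IsUnit r := by
    refine isUnit_of_dvd_unit (y := C c) ⟨A * (b ^ 2 + x0 ^ 2 * U ^ 3) + B * x0 ^ 2, ?_⟩
      (isUnit_C.2 (IsUnit.mk0 c hc))
    rw [← hAB, hJr, hFr]; ring
  obtain ⟨r0, hr0, hr0'⟩ := Polynomial.isUnit_iff.1 hru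
  have hr0ne : r0 ≠ 0 := hr0.ne_zero
  have hmain : a ^ 2 + y ^ 2 * U ^ 3 + C r0 * P ^ 2 = 0 := by
    rw [hr0', ← hl, hlr]; ring
  rcases Nat.le_one_iff_eq_zero_or_eq_one.1 hdeg with h0 | h0
  · have hPc := eq_C_of_natDegree_eq_zero h0
    have hp0 : P.coeff 0 ≠ 0 := by intro h; rw [h] at hPc; simp at hPc; exact hP hPc
    have hm := mason_const (c := r0 * P.coeff 0 ^ 2) (mul_ne_zero hr0ne (pow_ne_zero 2 hp0))
      hane hyne hU (by rw [map_mul, map_pow, ← hPc]; exact hmain)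
    refine ⟨h0, hm.2.2, a.coeff 0 / y.coeff 0, ?_⟩
    have hac := eq_C_of_natDegree_eq_zero hm.1
    have hyc := eq_C_of_natDegree_eq_zero hm.2.1
    have hy0 : y.coeff 0 ≠ 0 := by intro h; rw [h] at hyc; simp at hyc; exact hyne hyc
    have : (C (a.coeff 0 / y.coeff 0) : L[X]) * y = a := by
      conv_lhs => rw [hyc]
      conv_rhs => rw [hac]
      rw [← map_mul]
      congr 1
      simp only [coeff_C_zero]
      field_simp
    rw [ha, hy]
    linear_combination (-x0) * this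
  · exact (mason_lin hr0ne hane hyne hU h0 hya.symm hsq hmain).elim

end Vale.Agent.P295
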