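import Vale.Agent.P295.Model
import Vale.Agent.P295.Mason

/-! No homogeneous locally nilpotent derivation of the degenerate algebra kills a nonzero element
of the ideal `(F, J)`. -/

set_option linter.unusedSectionVars false
set_option linter.unusedSimpArgs false
set_option linter.unusedVariables false

namespace Vale.Agent.P295

open MvPolynomial

lemma weight_six (wt : Fin 6 → ℤ) (m : Fin 6 →₀ ℕ) : Finsupp.weight wt m =
    m 0 * wt 0 + m 1 * wt 1 + m 2 * wt 2 + m 3 * wt 3 + m 4 * wt 4 + m 5 * wt 5 := by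
  rw [Finsupp.weight_apply, Finsupp.sum_fintype _ _ (by simp)]
  simp [Fin.sum_univ_six]

lemma odd_dvd {N n : ℤ} (hn : Odd n) {P : S6} (hP : Hm (wL N) n (aeval g0 P)) :
    ∃ Q : S6, aeval g0 P = aeval g0 (X 1 * Q) := by
  have h1 := aeval_pr (w := wL N) (wS N) g0 (hm_g0_wL N) n P
  rw [hP.pr_self] at h1
  have h2 : pr (Finsupp.weight (wS N)) n P ∈ Ideal.span (X '' ({1} : Set (Fin 6))) := by
    rw [mem_ideal_span_X_image]
    intro m hm
    refine ⟨1, rfl, fun h => ?_⟩
    have h3 : Finsupp.weight (wS N) m = n := pr_mem n P m (mem_support_iff.1 hm)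
    rw [weight_six, h] at h3
    simp only [wS, Matrix.cons_val] at h3
    apply Int.not_even_iff_odd.2 hn
    exact ⟨m 0 * 2 - m 2 * 3 + m 3 * 3 + m 4 * (6 + N) + m 5 * N, by rw [← h3]; push_cast; ring⟩
  rw [Set.image_singleton, Ideal.mem_span_singleton] at h2
  obtain ⟨Q, hQ⟩ := h2
  exact ⟨Q, by rw [h1, hQ]⟩

noncomputable def sg : Lam := yy 2 * yi 1

noncomputable def sgi : Lam := yy 1 * yi 2

noncomputable def ell : Lam := sg ^ 2 + yy 3 ^ 3

lemma sg_mul : sg * sgi = 1 := by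
  rw [sg, sgi]; linear_combination (yy 2 * yi 2) * yy_mul_yi 1 + yy_mul_yi 2

/-- the generators as polynomials in `x` over the ring of `p, σ, u` -/
noncomputable def gP : Fin 6 → Polynomial Lam :=
  ![Polynomial.C (yy 3), Polynomial.C (yy 0), Polynomial.X,
    Polynomial.C sg + Polynomial.X * Polynomial.C ell,
    -(Polynomial.C (yi 0) ^ 2 * Polynomial.C ell *
      (1 + 2 * Polynomial.X * Polynomial.C sg + Polynomial.X ^ 2 * Polynomial.C ell)),
    -(Polynomial.X ^ 2 * Polynomial.C (yi 0) ^ 2 * Polynomial.C ell)]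

lemma eval_aeval_gP (y : Lam) (P : S6) :
    (aeval gP P).eval y = aeval (fun i => (gP i).eval y) P := by
  induction P using MvPolynomial.induction_on with
  | C c => simp [Polynomial.algebraMap_apply]
  | add p q hp hq => simp only [map_add, Polynomial.eval_add, hp, hq]
  | mul_X p i hp => simp only [map_mul, Polynomial.eval_mul, hp, aeval_X]

lemma chart_contra {A B : S6} {f : Lam} (hf : f ≠ 0)
    (h : aeval gP (A * X 4 + B * X 5) = Polynomial.C f) : False := by
  have hv := fun i => hm_yy ![0, 0, 1, 0] i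
  have hv' := fun i => hm_yi ![0, 0, 1, 0] i
  have hw := fun i => hm_yy ![0, 0, -1, 0] i
  have hw' := fun i => hm_yi ![0, 0, -1, 0] i
  have hsg : Hm (wv ![0, 0, 1, 0]) 1 sg := ((hv 2).mul (hv' 1)).cast (by simp)
  have hsgw : Hm (wv ![0, 0, -1, 0]) (-1) sg := ((hw 2).mul (hw' 1)).cast (by simp)
  have hsgi : Hm (wv ![0, 0, 1, 0]) (-1) sgi := ((hv 1).mul (hv' 2)).cast (by simp)
  have hu : Hm (wv ![0, 0, 1, 0]) 0 (yy 3) := hv 3
  have hu3 : Hm (wv ![0, 0, 1, 0]) 0 (yy 3 ^ 3) := (hu.pow 3).cast (by simp)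
  have hp2 : Hm (wv ![0, 0, 1, 0]) 0 (yi 0 ^ 2) := ((hv' 0).pow 2).cast (by simp)
  have hp2w : Hm (wv ![0, 0, -1, 0]) 0 (yi 0 ^ 2) := ((hw' 0).pow 2).cast (by simp)
  have hellw : Le (wv ![0, 0, -1, 0]) 0 ell :=
    ((hsgw.pow 2).le (by simp)).add (((hw 3).pow 3).le (by simp))
  -- the chart at infinity
  have h1 : Le (wv ![0, 0, 1, 0]) 0 f := by
    have e := congrArg (Polynomial.eval (-sgi)) h
    rw [eval_aeval_gP, Polynomial.eval_C] at e
    rw [← e]
    apply aeval_mem_Le_zero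
    have hq : Le (wv ![0, 0, 1, 0]) 0 (1 + sgi ^ 2 * yy 3 ^ 3) :=
      (hm_one.le le_rfl).add (((hsgi.pow 2).mul hu3).le (by simp))
    intro i
    fin_cases i
    · simpa [gP] using hu.le le_rfl
    · simpa [gP] using (hv 0).le (by simp)
    · simpa [gP] using hsgi.neg.le (by simp)
    · have : (gP 3).eval (-sgi) = -(sgi * yy 3 ^ 3) := by
        simp [gP, ell]; linear_combination (-sg) * sg_mul
      change Le _ 0 ((gP 3).eval (-sgi))
      rw [this]
      exact (hsgi.mul hu3).neg.le (by simp)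
    · have : (gP 4).eval (-sgi) = -(yi 0 ^ 2 * yy 3 ^ 3 * (1 + sgi ^ 2 * yy 3 ^ 3)) := by
        simp [gP, ell]
        linear_combination (yi 0 ^ 2 * ((sg ^ 2 + yy 3 ^ 3) * (sg * sgi - 1)
          + yy 3 ^ 3 * (sg * sgi + 1))) * sg_mul
      change Le _ 0 ((gP 4).eval (-sgi))
      rw [this]
      exact (((hp2.mul hu3).le le_rfl).mul hq).neg.mono (by simp)
    · have : (gP 5).eval (-sgi) = -(yi 0 ^ 2 * (1 + sgi ^ 2 * yy 3 ^ 3)) := by
        simp [gP, ell]
        linear_combination (yi 0 ^ 2 * (sg * sgi + 1)) * sg_mul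
      change Le _ 0 ((gP 5).eval (-sgi))
      rw [this]
      exact ((hp2.le le_rfl).mul hq).neg.mono (by simp)
  -- the finite chart
  obtain ⟨W, hW, hWf⟩ : ∃ W, Le (wv ![0, 0, -1, 0]) 0 W ∧ f = ell * W := by
    have e := congrArg (Polynomial.eval 0) h
    rw [eval_aeval_gP, Polynomial.eval_C, map_add, map_mul, map_mul, aeval_X, aeval_X] at e
    refine ⟨-(yi 0 ^ 2 * aeval (fun i => (gP i).eval 0) A), ?_, ?_⟩
    · refine (((hp2w.le le_rfl).mul (aeval_mem_Le_zero _ ?_ A)).neg).mono (by simp)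
      intro i
      fin_cases i
      · simpa [gP] using (hw 3).le (by simp)
      · simpa [gP] using (hw 0).le (by simp)
      · simpa [gP] using le_zero' _
      · simpa [gP] using hsgw.le (by simp)
      · simpa [gP] using (((hp2w.le le_rfl).mul hellw).neg).mono (k := 0) (by simp)
      · simpa [gP] using le_zero' _
    · rw [← e]
      have e4 : (gP 4).eval 0 = -(yi 0 ^ 2 * ell) := by simp [gP]
      have e5 : (gP 5).eval 0 = 0 := by simp [gP]
      rw [e4, e5]; ring
  have hW0 : W ≠ 0 := by rintro rfl; simp at hWf; exact hf hWf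
  obtain ⟨k, hk, hk'⟩ := exists_top (wv ![0, 0, 1, 0]) hW0
  have hk0 : 0 ≤ k := by
    obtain ⟨m, hm⟩ : ∃ m, (pr (wv ![0, 0, 1, 0]) k W).coeff m ≠ 0 := by
      by_contra hcon
      push Not at hcon
      apply hk'
      ext m
      simpa using hcon m
    have a1 : wv ![0, 0, 1, 0] m = k := pr_mem _ _ m hm
    have a2 : wv ![0, 0, -1, 0] m ≤ 0 := pr_mem_Sup k hW m hm
    simp [wv_apply, Fin.sum_univ_four] at a1 a2
    omega
  have hs2 : Hm (wv ![0, 0, 1, 0]) 2 (sg ^ 2) := (hsg.pow 2).cast (by simp)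
  have hell : Le (wv ![0, 0, 1, 0]) 2 ell := (hs2.le le_rfl).add (hu3.le (by simp))
  have hpr : pr (wv ![0, 0, 1, 0]) 2 ell = sg ^ 2 := by
    rw [ell, map_add, hs2.pr_self, hu3.pr_ne (by simp), add_zero]
  have := h1.pr_eq_zero (k := 2 + k) (by omega)
  rw [hWf, pr_mul hell hk, hpr] at this
  exact mul_ne_zero (pow_ne_zero 2 (left_ne_zero_of_mul_eq_one sg_mul)) hk' this

theorem final_contra {N e : ℤ} (hN : Odd N) (d : Fin 4 → Lam) (hd : ∀ i, Hm (wL N) e (d i))
    (hd0 : ∃ i, d i ≠ 0) (hpres : ∀ i, ∃ Q : S6, derOf d (g0 i) = aeval g0 Q)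
    (hnil : ∀ i, ∃ k, Dn (derOf d) k (g0 i) = 0) (A B : S6)
    (hf : aeval g0 (A * X 4 + B * X 5) ≠ 0)
    (hDf : derOf d (aeval g0 (A * X 4 + B * X 5)) = 0) : False := by
  obtain ⟨D, hD⟩ : ∃ D, D = derOf d := ⟨_, rfl⟩
  obtain ⟨f, hfdef⟩ : ∃ f, f = aeval g0 (A * X 4 + B * X 5) := ⟨_, rfl⟩
  rw [← hD] at hpres hnil hDf
  rw [← hfdef] at hf hDf
  have pres : ∀ P : S6, ∃ Q : S6, D (aeval g0 P) = aeval g0 Q := by
    intro P
    induction P using MvPolynomial.induction_on with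
    | C c => exact ⟨0, by rw [aeval_C, Derivation.map_algebraMap, map_zero]⟩
    | add p q hp hq =>
      obtain ⟨a, ha⟩ := hp
      obtain ⟨b, hb⟩ := hq
      exact ⟨a + b, by simp only [map_add, ha, hb]⟩
    | mul_X p i hp =>
      obtain ⟨a, ha⟩ := hp
      obtain ⟨b, hb⟩ := hpres i
      exact ⟨p * b + X i * a, by
        simp only [map_add, map_mul, aeval_X, Derivation.leibniz, ha, hb, smul_eq_mul]⟩
  have presn : ∀ k (P : S6), ∃ Q : S6, Dn D k (aeval g0 P) = aeval g0 Q := by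
    intro k P
    induction k with
    | zero => exact ⟨P, Dn_zero _ _⟩
    | succ k ih =>
      obtain ⟨Q, hQ⟩ := ih
      rw [Dn_succ', hQ]
      exact pres Q
  obtain ⟨ε, hε⟩ := exists_expPoly D g0 hnil
  have hfac : ∀ k : ℕ, ((k.factorial : ℂ)⁻¹) ≠ 0 := fun k =>
    inv_ne_zero (by exact_mod_cast k.factorial_ne_zero)
  have hε0 : ∀ P, (ε P).coeff 0 = aeval g0 P := fun P => by simp [hε, Dn_zero]
  have hε1 : ∀ P, (ε P).coeff 1 = D (aeval g0 P) := fun P => by simp [hε, Dn_succ, Dn_zero]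
  have hεne : ∀ P, aeval g0 P ≠ 0 → ε P ≠ 0 := fun P h h' => h (by rw [← hε0, h']; simp)
  have hεz : ∀ P, aeval g0 P = 0 → ε P = 0 := fun P h => by ext k; simp [hε, h]
  have gp : aeval g0 (X 1 : S6) = yy 0 := by simp [g0]
  have gx : aeval g0 (X 2 : S6) = yy 1 := by simp [g0]
  have gu : aeval g0 (X 0 : S6) = yy 3 := by simp [g0]
  have gt : aeval g0 (X 1 ^ 2 * X 5 + X 3 * X 2 : S6) = yy 2 := by simpa using g0_T
  have hP0 : ε (X 1) ≠ 0 := hεne _ (gp ▸ yy_ne_zero 0)
  have hX0 : ε (X 2) ≠ 0 := hεne _ (gx ▸ yy_ne_zero 1)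
  have hU0 : ε (X 0) ≠ 0 := hεne _ (gu ▸ yy_ne_zero 3)
  have hT0 : ε (X 1 ^ 2 * X 5 + X 3 * X 2) ≠ 0 := hεne _ (gt ▸ yy_ne_zero 2)
  -- the degree of `p`
  have hdeg : (ε (X 1)).natDegree ≤ 1 := by
    obtain ⟨k, hk⟩ : ∃ k, k = (ε (X 1)).natDegree := ⟨_, rfl⟩
    rcases Nat.eq_zero_or_pos k with h0 | h0
    · omega
    have hk1 : Dn D k (yy 0) ≠ 0 := by
      have := Polynomial.leadingCoeff_ne_zero.2 hP0
      rw [Polynomial.leadingCoeff, ← hk, hε, gp] at this
      exact fun h => this (by rw [h, smul_zero])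
    have hk2 : Dn D (k + 1) (yy 0) = 0 := by
      have := Polynomial.coeff_eq_zero_of_natDegree_lt (p := ε (X 1)) (n := k + 1) (by omega)
      rw [hε, gp] at this
      exact (smul_eq_zero.1 this).resolve_left (hfac _)
    obtain ⟨j, hj1, hj2, hj3⟩ : ∃ j : ℕ, j ≤ k ∧ k ≤ j + 1 ∧ Odd (-N + j * e) := by
      obtain ⟨k', rfl⟩ : ∃ k', k = k' + 1 := ⟨k - 1, by omega⟩
      rcases Nat.even_or_odd k' with h | h
      · exact ⟨k', by omega, le_rfl, hN.neg.add_even (((Int.even_coe_nat _).2 h).mul_right _)⟩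
      · exact ⟨k' + 1, le_rfl, by omega,
          hN.neg.add_even (((Int.even_coe_nat _).2 h.add_one).mul_right _)⟩
    obtain ⟨Q, hQ⟩ := presn j (X 1)
    rw [gp] at hQ
    have hhm : Hm (wL N) (-N + j * e) (aeval g0 Q) := by
      rw [← hQ, hD]
      exact derOf_hm_Dn (wL N) d e hd j (hm_yy ![-N, -6, 0, 4] 0)
    obtain ⟨Q', hQ'⟩ := odd_dvd hj3 hhm
    have hne : aeval g0 (X 1 * Q') ≠ 0 := by
      rw [← hQ', ← hQ]
      exact fun h => hk1 (Dn_eq_zero_of_le D h hj1)
    have hle : (ε (X 1 * Q')).natDegree ≤ 1 := by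
      rw [Polynomial.natDegree_le_iff_coeff_eq_zero]
      intro n hn
      rw [hε, ← hQ', ← hQ, ← Dn_add, Dn_eq_zero_of_le D hk2 (by omega), smul_zero]
    have hne' := hεne _ hne
    rw [map_mul] at hne' hle
    rw [Polynomial.natDegree_mul hP0 (right_ne_zero_of_mul hne')] at hle
    omega
  have hCf : ε (A * X 4 + B * X 5) = Polynomial.C f := by
    ext k
    rw [hε, ← hfdef]
    cases k with
    | zero => simp [Dn_zero]
    | succ k => simp [Dn_succ, hDf, Polynomial.coeff_C]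
  have r1 : ε (X 0) ^ 3 + ε (X 3) ^ 2 + ε (X 1) ^ 2 * ε (X 4) = 0 := by
    simpa [rho1] using hεz _ g0_rho1
  have r2 : ε (X 2) ^ 2 * ε (X 4) - (1 + 2 * ε (X 3) * ε (X 2)) * ε (X 5)
      - ε (X 1) ^ 2 * ε (X 5) ^ 2 = 0 := by
    simpa only [rho2, map_sub, map_mul, map_add, map_pow, map_one, map_ofNat] using hεz _ g0_rho2
  -- pass to the fraction field
  let L := FractionRing Lam
  let φ := algebraMap Lam L
  have hφ : Function.Injective φ := IsFractionRing.injective Lam L
  have : CharZero L := algebraRat.charZero L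
  let μ := Polynomial.mapRingHom φ
  have hμ : Function.Injective μ := Polynomial.map_injective φ hφ
  have hμne : ∀ q, q ≠ 0 → μ q ≠ 0 := fun q h h' => h (hμ (by rw [h', map_zero]))
  have hμdeg : ∀ q, (μ q).natDegree = q.natDegree := fun q =>
    Polynomial.natDegree_map_eq_of_injective hφ q
  have hT0' := hμne _ hT0
  simp only [map_add, map_mul, map_pow] at hT0'
  have hAB := congrArg μ hCf
  simp only [map_add, map_mul] at hAB
  have hc : φ f ≠ 0 := fun h => hf (hφ (by rw [h, map_zero]))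
  obtain ⟨c1, c2, σ, c3⟩ := mason_core (c := φ f) (A := μ (ε A)) (B := μ (ε B)) hc
    (hμne _ hP0) (hμne _ hX0) (hμne _ hU0) hT0'
    (by simpa only [map_add, map_mul, map_pow, map_zero] using congrArg μ r1)
    (by simpa only [map_sub, map_add, map_mul, map_pow, map_zero, map_one, map_ofNat]
      using congrArg μ r2)
    (by rw [hμdeg]; exact hdeg) (by rw [hAB]; simp [μ])
    (by
      intro v
      have : (μ (ε (X 0))).coeff 0 = φ (yy 3) := by simp [μ, hε0, g0]
      rw [this]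
      exact not_sq v)
  rw [hμdeg] at c1 c2
  have hPc : ε (X 1) = Polynomial.C (yy 0) := by
    rw [Polynomial.eq_C_of_natDegree_eq_zero c1, hε0, gp]
  have hUc : ε (X 0) = Polynomial.C (yy 3) := by
    rw [Polynomial.eq_C_of_natDegree_eq_zero c2, hε0, gu]
  have hTc : ε (X 1 ^ 2 * X 5 + X 3 * X 2) = Polynomial.C sg * ε (X 2) := by
    have c4 : μ (ε (X 1 ^ 2 * X 5 + X 3 * X 2)) = Polynomial.C σ * μ (ε (X 2)) := by
      simpa only [map_add, map_mul, map_pow] using c3
    have c5 := congrArg (fun q => Polynomial.coeff q 0) c4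
    simp only [μ, Polynomial.coe_mapRingHom, Polynomial.coeff_map, Polynomial.coeff_C_mul, hε0,
      gt, gx] at c5
    have c6 : σ = φ sg := by
      rw [sg, map_mul, c5, mul_assoc, ← map_mul, yy_mul_yi, map_one, mul_one]
    apply hμ
    rw [c4, c6, map_mul]
    simp [μ]
  by_cases hX : (ε (X 2)).natDegree = 0
  · have hXc := Polynomial.eq_C_of_natDegree_eq_zero hX
    obtain ⟨i, hi⟩ := hd0
    apply mul_ne_zero hi (yy_ne_zero i)
    rw [← derOf_yy, ← hD]
    fin_cases i
    · change D (yy 0) = 0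
      rw [← gp, ← hε1, hPc]; simp
    · change D (yy 1) = 0
      rw [← gx, ← hε1, hXc]; simp
    · change D (yy 2) = 0
      rw [← gt, ← hε1, hTc, hXc]; simp [← map_mul]
    · change D (yy 3) = 0
      rw [← gu, ← hε1, hUc]; simp
  obtain ⟨ξ, hξ⟩ : ∃ ξ, ξ = ε (X 2) := ⟨_, rfl⟩
  simp only [map_add, map_mul, map_pow] at hTc
  rw [← hξ, hPc] at r2 hTc
  rw [hPc, hUc] at r1
  rw [← hξ] at hX hX0
  have hp2 : Polynomial.C (yy 0) ^ 2 * Polynomial.C (yi 0) ^ 2 = 1 := by
    rw [← map_pow, ← map_pow, ← map_mul, p2_eq, map_one]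
  have hell : Polynomial.C ell = Polynomial.C sg ^ 2 + Polynomial.C (yy 3) ^ 3 := by
    simp [ell]
  have hS : ε (X 3) = Polynomial.C sg + ξ * Polynomial.C ell := by
    apply mul_left_cancel₀ hX0
    rw [hell]
    linear_combination Polynomial.C (yy 0) ^ 2 * r2 - ξ ^ 2 * r1 +
      (Polynomial.C (yy 0) ^ 2 * ε (X 5) + ε (X 3) * ξ + Polynomial.C sg * ξ + 1) * hTc
  have hcomp : ∀ P, ε P = (aeval gP P).comp ξ := by
    intro P
    induction P using MvPolynomial.induction_on with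
    | C c =>
      rw [aeval_C, ← algebraMap_eq, AlgHom.commutes]
      simp [Polynomial.algebraMap_apply]
    | add p q hp hq => simp only [map_add, Polynomial.add_comp, hp, hq]
    | mul_X p i hp =>
      rw [map_mul, map_mul, Polynomial.mul_comp, hp, aeval_X]
      congr 1
      fin_cases i
      · simp [gP, hUc]
      · simp [gP, hPc]
      · simp [gP, hξ]
      · simp [gP, hS]
        ring
      · simp only [gP, Fin.reduceFinMk, Matrix.cons_val, Polynomial.neg_comp, Polynomial.mul_comp,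
          Polynomial.pow_comp, Polynomial.C_comp, Polynomial.add_comp, Polynomial.one_comp,
          Polynomial.X_comp, Polynomial.ofNat_comp]
        rw [hS] at r1
        rw [hell] at r1 ⊢
        push_cast
        linear_combination Polynomial.C (yi 0) ^ 2 * r1 - ε (X 4) * hp2
      · simp only [gP, Fin.reduceFinMk, Matrix.cons_val, Polynomial.neg_comp, Polynomial.mul_comp,
          Polynomial.pow_comp, Polynomial.C_comp, Polynomial.add_comp, Polynomial.one_comp,
          Polynomial.X_comp]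
        rw [hS] at hTc
        linear_combination Polynomial.C (yi 0) ^ 2 * hTc - ε (X 5) * hp2
  have h1 := hcomp (A * X 4 + B * X 5)
  rw [hCf] at h1
  have h2 := congrArg Polynomial.natDegree h1
  rw [Polynomial.natDegree_C, Polynomial.natDegree_comp] at h2
  have h3 : (aeval gP (A * X 4 + B * X 5)).natDegree = 0 :=
    (mul_eq_zero.1 h2.symm).resolve_right hX
  have h4 := Polynomial.eq_C_of_natDegree_eq_zero h3
  rw [h4, Polynomial.C_comp] at h1
  exact chart_contra hf (h4.trans h1.symm)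

end Vale.Agent.P295
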