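import Mathlib

/-! Weight filtrations and homogeneous projections on additive monoid algebras over `ℂ`. -/

set_option linter.unusedSectionVars false
set_option linter.unusedSimpArgs false
set_option linter.unusedVariables false

namespace Vale.Agent.P295

open AddMonoidAlgebra

variable {M : Type*} [AddCommMonoid M]

/-- elements supported on exponents satisfying `P` -/
def Sup (P : M → Prop) : Submodule ℂ (AddMonoidAlgebra ℂ M) where
  carrier := {a | ∀ m, a.coeff m ≠ 0 → P m}
  add_mem' := by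
    intro a b ha hb m hm
    by_cases h : a.coeff m = 0
    · apply hb m
      intro h2
      apply hm
      simp [h, h2]
    · exact ha m h
  zero_mem' := by intro m hm; simp at hm
  smul_mem' := by
    intro c a ha m hm
    apply ha m
    intro h
    apply hm
    simp [h]

lemma mem_Sup {P : M → Prop} {a : AddMonoidAlgebra ℂ M} :
    a ∈ Sup P ↔ ∀ m, a.coeff m ≠ 0 → P m := Iff.rfl

lemma Sup_mul {P Q R : M → Prop} (h : ∀ m k, P m → Q k → R (m + k))
    {a b : AddMonoidAlgebra ℂ M} (ha : a ∈ Sup P) (hb : b ∈ Sup Q) : a * b ∈ Sup R := by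
  classical
  intro m hm
  have h1 := AddMonoidAlgebra.support_coeff_mul_subset a b (Finsupp.mem_support_iff.2 hm)
  obtain ⟨x, hx, y, hy, rfl⟩ := Finset.mem_add.1 h1
  exact h _ _ (ha x (Finsupp.mem_support_iff.1 hx)) (hb y (Finsupp.mem_support_iff.1 hy))

lemma single_mem_Sup {P : M → Prop} {m : M} (h : P m) (c : ℂ) : single m c ∈ Sup P := by
  classical
  intro k hk
  have : m = k := by
    by_contra hne
    apply hk
    simp [Finsupp.single_apply, hne]
  rwa [← this]

lemma Sup_mono {P Q : M → Prop} (h : ∀ m, P m → Q m) {a : AddMonoidAlgebra ℂ M}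
    (ha : a ∈ Sup P) : a ∈ Sup Q := fun m hm => h m (ha m hm)

variable (w : M →+ ℤ)

/-- weight at most `n` -/
def Le (n : ℤ) (a : AddMonoidAlgebra ℂ M) : Prop := a ∈ Sup (fun m => w m ≤ n)

/-- homogeneous of weight `n` -/
def Hm (n : ℤ) (a : AddMonoidAlgebra ℂ M) : Prop := a ∈ Sup (fun m => w m = n)

/-- projection to the weight `n` part -/
noncomputable def pr (n : ℤ) : AddMonoidAlgebra ℂ M →ₗ[ℂ] AddMonoidAlgebra ℂ M where
  toFun a := ofCoeff (a.coeff.filter (fun m => w m = n))
  map_add' a b := by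
    ext m; simp [Finsupp.filter_apply]
  map_smul' c a := by
    ext m; simp [Finsupp.filter_apply]

lemma coeff_pr (n : ℤ) (a : AddMonoidAlgebra ℂ M) (m : M) :
    (pr w n a).coeff m = if w m = n then a.coeff m else 0 := by
  simp [pr, Finsupp.filter_apply]

variable {w}

lemma Le.mul {n k : ℤ} {a b : AddMonoidAlgebra ℂ M} (ha : Le w n a) (hb : Le w k b) :
    Le w (n + k) (a * b) :=
  Sup_mul (fun m l h1 h2 => by rw [map_add]; omega) ha hb

lemma Hm.mul {n k : ℤ} {a b : AddMonoidAlgebra ℂ M} (ha : Hm w n a) (hb : Hm w k b) :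
    Hm w (n + k) (a * b) :=
  Sup_mul (fun m l h1 h2 => by rw [map_add]; omega) ha hb

lemma Le.mono {n k : ℤ} {a : AddMonoidAlgebra ℂ M} (ha : Le w n a) (h : n ≤ k) :
    Le w k a := Sup_mono (fun m hm => le_trans hm h) ha

lemma Hm.le {n k : ℤ} {a : AddMonoidAlgebra ℂ M} (ha : Hm w n a) (h : n ≤ k) : Le w k a :=
  Sup_mono (fun m hm => le_trans (le_of_eq hm) h) ha

lemma Hm.cast {n k : ℤ} {a : AddMonoidAlgebra ℂ M} (ha : Hm w n a) (h : n = k) :
    Hm w k a := h ▸ ha

lemma Le.add {n : ℤ} {a b : AddMonoidAlgebra ℂ M} (ha : Le w n a) (hb : Le w n b) :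
    Le w n (a + b) := Submodule.add_mem _ ha hb
lemma Le.sub {n : ℤ} {a b : AddMonoidAlgebra ℂ M} (ha : Le w n a) (hb : Le w n b) :
    Le w n (a - b) := Submodule.sub_mem _ ha hb
lemma Le.neg {n : ℤ} {a : AddMonoidAlgebra ℂ M} (ha : Le w n a) :
    Le w n (-a) := Submodule.neg_mem _ ha
lemma Le.smul {n : ℤ} {a : AddMonoidAlgebra ℂ M} (ha : Le w n a) (c : ℂ) :
    Le w n (c • a) := Submodule.smul_mem _ c ha
lemma Le.sum {n : ℤ} {ι : Type*} {s : Finset ι} {f : ι → AddMonoidAlgebra ℂ M}
    (h : ∀ i ∈ s, Le w n (f i)) : Le w n (∑ i ∈ s, f i) := Submodule.sum_mem _ h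
lemma le_zero' (n : ℤ) : Le w n 0 := Submodule.zero_mem _
lemma Hm.add {n : ℤ} {a b : AddMonoidAlgebra ℂ M} (ha : Hm w n a) (hb : Hm w n b) :
    Hm w n (a + b) := Submodule.add_mem _ ha hb
lemma Hm.sub {n : ℤ} {a b : AddMonoidAlgebra ℂ M} (ha : Hm w n a) (hb : Hm w n b) :
    Hm w n (a - b) := Submodule.sub_mem _ ha hb
lemma Hm.neg {n : ℤ} {a : AddMonoidAlgebra ℂ M} (ha : Hm w n a) :
    Hm w n (-a) := Submodule.neg_mem _ ha
lemma Hm.smul {n : ℤ} {a : AddMonoidAlgebra ℂ M} (ha : Hm w n a) (c : ℂ) :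
    Hm w n (c • a) := Submodule.smul_mem _ c ha
lemma Hm.sum {n : ℤ} {ι : Type*} {s : Finset ι} {f : ι → AddMonoidAlgebra ℂ M}
    (h : ∀ i ∈ s, Hm w n (f i)) : Hm w n (∑ i ∈ s, f i) := Submodule.sum_mem _ h
lemma hm_zero (n : ℤ) : Hm w n 0 := Submodule.zero_mem _

lemma hm_single (m : M) (c : ℂ) : Hm w (w m) (single m c) :=
  single_mem_Sup (P := fun k => w k = w m) rfl c

lemma hm_one : Hm w 0 (1 : AddMonoidAlgebra ℂ M) := (hm_single 0 1).cast (map_zero w)

lemma hm_algebraMap (c : ℂ) : Hm w 0 (algebraMap ℂ (AddMonoidAlgebra ℂ M) c) := by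
  rw [Algebra.algebraMap_eq_smul_one]
  exact hm_one.smul c

lemma hm_two : Hm w 0 (2 : AddMonoidAlgebra ℂ M) := by
  rw [← one_add_one_eq_two]; exact hm_one.add hm_one

lemma Hm.pow {n : ℤ} {a : AddMonoidAlgebra ℂ M} (ha : Hm w n a) (k : ℕ) :
    Hm w (k * n) (a ^ k) := by
  induction k with
  | zero => simpa using hm_one
  | succ k ih =>
    rw [pow_succ]
    exact (ih.mul ha).cast (by push_cast; ring)

lemma Le.pow {n : ℤ} {a : AddMonoidAlgebra ℂ M} (ha : Le w n a) (k : ℕ) :
    Le w (k * n) (a ^ k) := by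
  induction k with
  | zero => simpa using hm_one.le le_rfl
  | succ k ih =>
    rw [pow_succ]
    exact (ih.mul ha).mono (by push_cast; linarith)

lemma pr_mem (n : ℤ) (a : AddMonoidAlgebra ℂ M) : Hm w n (pr w n a) := by
  intro m hm
  rw [coeff_pr] at hm
  by_contra h
  exact hm (if_neg h)

lemma pr_mem_Sup {P : M → Prop} (n : ℤ) {a : AddMonoidAlgebra ℂ M} (ha : a ∈ Sup P) :
    pr w n a ∈ Sup P := by
  intro m hm
  rw [coeff_pr] at hm
  apply ha m
  intro h
  apply hm
  simp [h]

lemma Hm.pr_self {n : ℤ} {a : AddMonoidAlgebra ℂ M} (ha : Hm w n a) : pr w n a = a := by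
  ext m
  rw [coeff_pr]
  split_ifs with h
  · rfl
  · by_contra h2
    exact h (ha m (Ne.symm h2))

lemma Hm.pr_ne {n k : ℤ} {a : AddMonoidAlgebra ℂ M} (ha : Hm w n a) (h : n ≠ k) :
    pr w k a = 0 := by
  ext m
  rw [coeff_pr]
  split_ifs with h1
  · by_contra h2
    exact h ((ha m (by simpa using h2)).symm.trans h1)
  · simp

lemma Le.pr_eq_zero {n k : ℤ} {a : AddMonoidAlgebra ℂ M} (ha : Le w n a) (h : n < k) :
    pr w k a = 0 := by
  ext m
  rw [coeff_pr]
  split_ifs with h1
  · by_contra h2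
    have := ha m (by simpa using h2)
    simp only at this
    omega
  · simp

lemma Le.sub_pr {n : ℤ} {a : AddMonoidAlgebra ℂ M} (ha : Le w n a) :
    Le w (n - 1) (a - pr w n a) := by
  intro m hm
  have h1 : (a - pr w n a).coeff m = a.coeff m - (pr w n a).coeff m := by simp
  rw [h1, coeff_pr] at hm
  split_ifs at hm with h
  · simp at hm
  · have := ha m (by simpa using hm)
    simp only at this ⊢
    omega

lemma Le.of_pr_eq_zero {n : ℤ} {a : AddMonoidAlgebra ℂ M} (ha : Le w n a)
    (h : pr w n a = 0) : Le w (n - 1) a := by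
  simpa [h] using ha.sub_pr

lemma pr_hm_mul {k : ℤ} {r : AddMonoidAlgebra ℂ M} (hr : Hm w k r) (n : ℤ)
    (a : AddMonoidAlgebra ℂ M) : pr w (k + n) (r * a) = r * pr w n a := by
  induction a using AddMonoidAlgebra.induction_linear with
  | zero => simp
  | add a b ha hb => rw [mul_add, map_add, map_add, ha, hb, mul_add]
  | single m c =>
    have h1 : Hm w (w m) (single m c) := hm_single m c
    by_cases h : w m = n
    · rw [← h, (hr.mul h1).pr_self, h1.pr_self]
    · rw [(hr.mul h1).pr_ne (by omega), h1.pr_ne h, mul_zero]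

lemma pr_mul {n k : ℤ} {a b : AddMonoidAlgebra ℂ M} (ha : Le w n a) (hb : Le w k b) :
    pr w (n + k) (a * b) = pr w n a * pr w k b := by
  have e : a * b = pr w n a * b + (a - pr w n a) * b := by ring
  rw [e, map_add, pr_hm_mul (pr_mem n a), (ha.sub_pr.mul hb).pr_eq_zero (by omega), add_zero]

lemma exists_le (w : M →+ ℤ) (a : AddMonoidAlgebra ℂ M) : ∃ n, Le w n a := by
  obtain ⟨n, hn⟩ := (a.coeff.support.image w).finite_toSet.bddAbove
  refine ⟨n, fun m hm => hn ?_⟩
  simp only [Finset.coe_image, Set.mem_image, Finset.mem_coe]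
  exact ⟨m, Finsupp.mem_support_iff.2 hm, rfl⟩

lemma exists_top (w : M →+ ℤ) {a : AddMonoidAlgebra ℂ M} (ha : a ≠ 0) :
    ∃ n, Le w n a ∧ pr w n a ≠ 0 := by
  have hne : a.coeff.support.Nonempty := by
    rw [Finsupp.support_nonempty_iff]; simpa using ha
  obtain ⟨m, hm, hmax⟩ := Finset.exists_max_image _ w hne
  refine ⟨w m, fun k hk => hmax k (Finsupp.mem_support_iff.2 hk), ?_⟩
  intro h
  have := congrArg (fun z => z.coeff m) h
  simp only [coeff_pr, if_true, coeff_zero, Finsupp.coe_zero, Pi.zero_apply] at this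
  exact Finsupp.mem_support_iff.1 hm this

lemma top_unique {a : AddMonoidAlgebra ℂ M} {n k : ℤ} (hn : Le w n a) (hn' : pr w n a ≠ 0)
    (hk : Le w k a) (hk' : pr w k a ≠ 0) : n = k := by
  rcases lt_trichotomy n k with h | h | h
  · exact absurd (hn.pr_eq_zero h) hk'
  · exact h
  · exact absurd (hk.pr_eq_zero h) hn'

/-- an element is the sum of its homogeneous parts -/
lemma sum_pr (w : M →+ ℤ) (a : AddMonoidAlgebra ℂ M) :
    a = ∑ n ∈ a.coeff.support.image w, pr w n a := by
  classical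
  ext m
  rw [AddMonoidAlgebra.coeff_sum, Finsupp.finsetSum_apply]
  simp only [coeff_pr]
  rw [Finset.sum_ite_eq]
  split_ifs with h
  · rfl
  · by_contra h2
    exact h (Finset.mem_image_of_mem _ (Finsupp.mem_support_iff.2 h2))

/-- a filtered algebra map and its leading part -/
lemma aeval_top {ι : Type*} (wt : ι → ℤ) (g1 g0 : ι → AddMonoidAlgebra ℂ M)
    (h1 : ∀ i, Le w (wt i) (g1 i)) (h0 : ∀ i, pr w (wt i) (g1 i) = g0 i) (n : ℤ)
    (P : MvPolynomial ι ℂ) (hP : Le (Finsupp.weight wt) n P) :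
    Le w n (MvPolynomial.aeval g1 P) ∧
      pr w n (MvPolynomial.aeval g1 P) =
        MvPolynomial.aeval g0 (pr (Finsupp.weight wt) n P) := by
  classical
  have key : ∀ d : ι →₀ ℕ, Le w (Finsupp.weight wt d) (d.prod fun i k => g1 i ^ k) ∧
      pr w (Finsupp.weight wt d) (d.prod fun i k => g1 i ^ k) = d.prod fun i k => g0 i ^ k := by
    intro d
    induction d using Finsupp.induction_linear with
    | zero => simpa using ⟨hm_one.le le_rfl, hm_one.pr_self⟩
    | add d e hd he =>
      rw [Finsupp.prod_add_index' (by simp) (by simp [pow_add]),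
        Finsupp.prod_add_index' (by simp) (by simp [pow_add]), map_add]
      exact ⟨hd.1.mul he.1, by rw [pr_mul hd.1 he.1, hd.2, he.2]⟩
    | single i k =>
      rw [Finsupp.prod_single_index (by simp), Finsupp.prod_single_index (by simp),
        Finsupp.weight_single]
      induction k with
      | zero => simpa using ⟨hm_one.le le_rfl, hm_one.pr_self⟩
      | succ k ih =>
        rw [pow_succ, pow_succ, succ_nsmul]
        exact ⟨ih.1.mul (h1 i), by rw [pr_mul ih.1 (h1 i), ih.2, h0]⟩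
  have hs : P = ∑ d ∈ P.support, MvPolynomial.monomial d (P.coeff d) := P.as_sum
  have hmon : ∀ d ∈ P.support, 
      Le w n (MvPolynomial.aeval g1 (MvPolynomial.monomial d (P.coeff d))) ∧
      pr w n (MvPolynomial.aeval g1 (MvPolynomial.monomial d (P.coeff d))) =
        MvPolynomial.aeval g0 (pr (Finsupp.weight wt) n (MvPolynomial.monomial d (P.coeff d))) := by
    intro d hd
    have hdn : Finsupp.weight wt d ≤ n := hP d (MvPolynomial.mem_support_iff.1 hd)
    have hm : Hm (Finsupp.weight wt) (Finsupp.weight wt d)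
        (MvPolynomial.monomial d (P.coeff d)) := hm_single _ _
    rw [MvPolynomial.aeval_monomial, Algebra.algebraMap_eq_smul_one, smul_mul_assoc, one_mul]
    refine ⟨((key d).1.mono hdn).smul _, ?_⟩
    rcases hdn.eq_or_lt with h | h
    · rw [← h, hm.pr_self, map_smul, (key d).2, MvPolynomial.aeval_monomial,
        Algebra.algebraMap_eq_smul_one, smul_mul_assoc, one_mul]
    · rw [hm.pr_ne h.ne, map_smul, (key d).1.pr_eq_zero h]; simp
  constructor
  · rw [hs, map_sum]
    exact Le.sum fun d hd => (hmon d hd).1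
  · conv_lhs => rw [hs]
    conv_rhs => rw [hs]
    simp only [map_sum]
    exact Finset.sum_congr rfl fun d hd => (hmon d hd).2

/-- a graded algebra map commutes with projections -/
lemma aeval_pr {ι : Type*} (wt : ι → ℤ) (g0 : ι → AddMonoidAlgebra ℂ M)
    (h0 : ∀ i, Hm w (wt i) (g0 i)) (n : ℤ) (P : MvPolynomial ι ℂ) :
    pr w n (MvPolynomial.aeval g0 P) = MvPolynomial.aeval g0 (pr (Finsupp.weight wt) n P) := by
  induction P using AddMonoidAlgebra.induction_linear with
  | zero => simp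
  | add a b ha hb => simp only [map_add, ha, hb]
  | single d c =>
    have hm : Hm (Finsupp.weight wt) (Finsupp.weight wt d) (single d c : MvPolynomial ι ℂ) :=
      hm_single _ _
    have h := aeval_top (w := w) wt g0 g0 (fun i => (h0 i).le le_rfl) (fun i => (h0 i).pr_self)
      _ _ (hm.le le_rfl)
    rw [hm.pr_self] at h
    have h2 : Hm w (Finsupp.weight wt d)
        (MvPolynomial.aeval g0 (single d c : MvPolynomial ι ℂ)) := h.2 ▸ pr_mem _ _
    by_cases hn : Finsupp.weight wt d = n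
    · rw [← hn, hm.pr_self, h2.pr_self]
    · rw [hm.pr_ne hn, h2.pr_ne hn, map_zero]

lemma aeval_mem_Le_zero {ι : Type*} (g : ι → AddMonoidAlgebra ℂ M) (h : ∀ i, Le w 0 (g i))
    (P : MvPolynomial ι ℂ) : Le w 0 (MvPolynomial.aeval g P) := by
  induction P using MvPolynomial.induction_on with
  | C c => simpa using (hm_algebraMap c).le le_rfl
  | add p q hp hq => rw [map_add]; exact hp.add hq
  | mul_X p i hp => rw [map_mul, MvPolynomial.aeval_X]; simpa using hp.mul (h i)

end Vale.Agent.P295
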