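import Vale.Agent.P295.Der

/-! The Laurent model of the fourfold, its degeneration, and leading forms. -/

set_option linter.unusedSectionVars false
set_option linter.unusedSimpArgs false
set_option linter.unusedVariables false

namespace Vale.Agent.P295

open MvPolynomial

/-- variables `u, p, x, s, F, J` -/
abbrev S6 := MvPolynomial (Fin 6) ℂ

noncomputable def rho1 : S6 := X 0 ^ 3 + X 3 ^ 2 + X 1 ^ 2 * X 4

noncomputable def rho2 : S6 := X 2 ^ 2 * X 4 - (1 + 2 * X 3 * X 2) * X 5 - X 1 ^ 2 * X 5 ^ 2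

noncomputable def s0 : Lam := yi 1 * (yy 2 ^ 2 + yy 2 + yy 1 ^ 2 * yy 3 ^ 3)

noncomputable def s1 : Lam := s0 + yi 1 * (yy 0 ^ 3 * yy 3 - yy 1 ^ 3)

noncomputable def g0 : Fin 6 → Lam :=
  ![yy 3, yy 0, yy 1, s0, -(yi 0 ^ 2 * (s0 ^ 2 + yy 3 ^ 3)), yi 0 ^ 2 * (yy 2 - s0 * yy 1)]

noncomputable def g1 : Fin 6 → Lam :=
  ![yy 3, yy 0, yy 1, s1, yi 0 ^ 2 * (yy 1 - s1 ^ 2 - yy 3 ^ 3), yi 0 ^ 2 * (yy 2 - s1 * yy 1)]

lemma s0_eq : yy 1 * s0 = yy 2 ^ 2 + yy 2 + yy 1 ^ 2 * yy 3 ^ 3 := by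
  rw [s0]; linear_combination (yy 2 ^ 2 + yy 2 + yy 1 ^ 2 * yy 3 ^ 3) * yy_mul_yi 1

lemma s1_eq : yy 1 * s1 = yy 2 ^ 2 + yy 2 + yy 1 ^ 2 * yy 3 ^ 3 + yy 0 ^ 3 * yy 3 - yy 1 ^ 3 := by
  rw [s1]; linear_combination s0_eq + (yy 0 ^ 3 * yy 3 - yy 1 ^ 3) * yy_mul_yi 1

lemma p2_eq : yy 0 ^ 2 * yi 0 ^ 2 = 1 := by rw [← mul_pow, yy_mul_yi, one_pow]

lemma g0_rho1 : aeval g0 rho1 = 0 := by
  simp [rho1, g0]
  linear_combination (-(s0 ^ 2 + yy 3 ^ 3)) * p2_eq

lemma g0_rho2 : aeval g0 rho2 = 0 := by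
  apply mul_left_cancel₀ (pow_ne_zero 2 (yy_ne_zero 0))
  simp only [rho2, map_sub, map_mul, map_add, map_pow, aeval_X, map_one, map_ofNat, g0]
  simp only [Matrix.cons_val, mul_zero]
  linear_combination (-(yy 1 ^ 2 * (s0 ^ 2 + yy 3 ^ 3)) - (1 + 2 * s0 * yy 1) * (yy 2 - s0 * yy 1)
    - (yy 0 ^ 2 * yi 0 ^ 2 + 1) * (yy 2 - s0 * yy 1) ^ 2) * p2_eq + s0_eq

lemma g1_rho1 : aeval g1 (rho1 - X 2) = 0 := by
  simp [rho1, g1]
  linear_combination (yy 1 - s1 ^ 2 - yy 3 ^ 3) * p2_eq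

lemma g1_rho2 : aeval g1 (rho2 - X 1 * X 0) = 0 := by
  apply mul_left_cancel₀ (pow_ne_zero 2 (yy_ne_zero 0))
  simp only [rho2, map_sub, map_mul, map_add, map_pow, aeval_X, map_one, map_ofNat, g1]
  simp only [Matrix.cons_val, mul_zero]
  linear_combination (yy 1 ^ 2 * (yy 1 - s1 ^ 2 - yy 3 ^ 3) - (1 + 2 * s1 * yy 1) * (yy 2 - s1 * yy 1)
    - (yy 0 ^ 2 * yi 0 ^ 2 + 1) * (yy 2 - s1 * yy 1) ^ 2) * p2_eq + s1_eq

lemma g0_T : g0 1 ^ 2 * g0 5 + g0 3 * g0 2 = yy 2 := by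
  simp only [g0, Matrix.cons_val]
  linear_combination (yy 2 - s0 * yy 1) * p2_eq

lemma g1_T : g1 1 ^ 2 * g1 5 + g1 3 * g1 2 = yy 2 := by
  simp only [g1, Matrix.cons_val]
  linear_combination (yy 2 - s1 * yy 1) * p2_eq

/-! ### The kernel of the degenerate model -/

lemma clear_den {Q : Type*} [CommRing Q] [Algebra ℂ Q] (z : Fin 6 → Q)
    (h1 : z 0 ^ 3 + z 3 ^ 2 + z 1 ^ 2 * z 4 = 0)
    (h2 : z 2 ^ 2 * z 4 - (1 + 2 * z 3 * z 2) * z 5 - z 1 ^ 2 * z 5 ^ 2 = 0) (P : S6) :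
    ∃ (k : ℕ) (P' : MvPolynomial (Fin 4) ℂ), (z 1 * z 2) ^ k * aeval z P =
      aeval ![z 1, z 2, z 1 ^ 2 * z 5 + z 3 * z 2, z 0] P' := by
  obtain ⟨T, hT⟩ : ∃ T, T = z 1 ^ 2 * z 5 + z 3 * z 2 := ⟨_, rfl⟩
  rw [← hT]
  have hQ : z 2 * z 3 = T ^ 2 + T + z 2 ^ 2 * z 0 ^ 3 := by
    rw [hT]; linear_combination z 1 ^ 2 * h2 - z 2 ^ 2 * h1
  have hgen : ∀ i, ∃ (k : ℕ) (P' : MvPolynomial (Fin 4) ℂ), (z 1 * z 2) ^ k * z i =
      aeval ![z 1, z 2, T, z 0] P' := by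
    intro i
    fin_cases i
    · exact ⟨0, X 3, by simp⟩
    · exact ⟨0, X 0, by simp⟩
    · exact ⟨0, X 1, by simp⟩
    · refine ⟨1, X 0 * (X 2 ^ 2 + X 2 + X 1 ^ 2 * X 3 ^ 3), ?_⟩
      simp
      linear_combination z 1 * hQ
    · refine ⟨2, -(X 2 ^ 2 + X 2 + X 1 ^ 2 * X 3 ^ 3) ^ 2 - X 1 ^ 2 * X 3 ^ 3, ?_⟩
      simp
      rw [← hQ]
      linear_combination z 2 ^ 2 * h1
    · refine ⟨2, X 1 ^ 2 * (X 2 - (X 2 ^ 2 + X 2 + X 1 ^ 2 * X 3 ^ 3)), ?_⟩
      simp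
      rw [← hQ, hT]
      ring
  induction P using MvPolynomial.induction_on with
  | C c => exact ⟨0, C c, by simp⟩
  | add p q hp hq =>
    obtain ⟨k, P', hk⟩ := hp
    obtain ⟨l, Q', hl⟩ := hq
    refine ⟨k + l, (X 0 * X 1) ^ l * P' + (X 0 * X 1) ^ k * Q', ?_⟩
    simp only [map_add, map_mul, map_pow, aeval_X, Matrix.cons_val, ← hk, ← hl]
    ring
  | mul_X p i hp =>
    obtain ⟨k, P', hk⟩ := hp
    obtain ⟨l, Q', hl⟩ := hgen i
    refine ⟨k + l, P' * Q', ?_⟩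
    simp only [map_mul, aeval_X, ← hk, ← hl]
    ring

lemma nzd_poly {R : Type*} [CommRing R] [IsDomain R] {g : Polynomial R} (hg : g.Monic) {r y : R}
    (hy : ∀ k, r ∣ y * k → r ∣ k) {P A B : Polynomial R}
    (h : Polynomial.C y * P = g * A + Polynomial.C r * B) :
    ∃ A' B', P = g * A' + Polynomial.C r * B' := by
  have hP := Polynomial.modByMonic_add_div P g
  have hB := Polynomial.modByMonic_add_div B g
  have h0 : Polynomial.C y * (P %ₘ g) - Polynomial.C r * (B %ₘ g) = 0 := by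
    apply Polynomial.eq_zero_of_dvd_of_degree_lt (p := g)
    · refine ⟨A + Polynomial.C r * (B /ₘ g) - Polynomial.C y * (P /ₘ g), ?_⟩
      linear_combination h + Polynomial.C y * hP - Polynomial.C r * hB
    · refine lt_of_le_of_lt (Polynomial.degree_sub_le _ _) (max_lt ?_ ?_)
      · rw [← Polynomial.smul_eq_C_mul]
        exact lt_of_le_of_lt (Polynomial.degree_smul_le _ _) (Polynomial.degree_modByMonic_lt _ hg)
      · rw [← Polynomial.smul_eq_C_mul]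
        exact lt_of_le_of_lt (Polynomial.degree_smul_le _ _) (Polynomial.degree_modByMonic_lt _ hg)
  have h1 : Polynomial.C r ∣ P %ₘ g := by
    rw [Polynomial.C_dvd_iff_dvd_coeff]
    intro i
    apply hy
    have := congrArg (fun z => Polynomial.coeff z i) h0
    simp only [Polynomial.coeff_sub, Polynomial.coeff_C_mul, Polynomial.coeff_zero] at this
    exact ⟨(B %ₘ g).coeff i, by linear_combination this⟩
  obtain ⟨B', hB'⟩ := h1
  exact ⟨P /ₘ g, B', by rw [← hB']; linear_combination -hP⟩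

lemma nzd_X (j : Fin 5) (hj : j = 0 ∨ j = 1) {P A B : S6}
    (h : X j.succ * P = rho1 * A + rho2 * B) : ∃ A' B', P = rho1 * A' + rho2 * B' := by
  let r : MvPolynomial (Fin 5) ℂ :=
    X 1 ^ 2 * X 3 - (1 + 2 * X 2 * X 1) * X 4 - X 0 ^ 2 * X 4 ^ 2
  let e := finSuccEquiv ℂ 5
  have e1 : e (X 1) = Polynomial.C (X 0) := finSuccEquiv_X_succ (j := 0)
  have e2 : e (X 2) = Polynomial.C (X 1) := finSuccEquiv_X_succ (j := 1)
  have e3 : e (X 3) = Polynomial.C (X 2) := finSuccEquiv_X_succ (j := 2)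
  have e4 : e (X 4) = Polynomial.C (X 3) := finSuccEquiv_X_succ (j := 3)
  have e5 : e (X 5) = Polynomial.C (X 4) := finSuccEquiv_X_succ (j := 4)
  have e0 : e (X 0) = Polynomial.X := finSuccEquiv_X_zero
  have hr : e rho2 = Polynomial.C r := by
    simp only [rho2, r, map_sub, map_mul, map_add, map_pow, map_one, map_ofNat, e1, e2, e3, e4, e5]
  have hg : e rho1 = Polynomial.X ^ 3 + Polynomial.C (X 2 ^ 2 + X 0 ^ 2 * X 3) := by
    simp only [rho1, map_mul, map_add, map_pow, e0, e1, e3, e4]; ring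
  have hmon : (e rho1).Monic := by rw [hg]; exact Polynomial.monic_X_pow_add_C _ (by norm_num)
  have hnd : ¬ (X j : MvPolynomial (Fin 5) ℂ) ∣ r := by
    rintro ⟨q, hq⟩
    have := congrArg (eval (![0, 0, 0, 0, 1] : Fin 5 → ℂ)) hq
    rcases hj with rfl | rfl <;> simp [r] at this
  have hy : ∀ k, r ∣ X j * k → r ∣ k := by
    rintro k ⟨b, hb⟩
    have hp : Prime (X j : MvPolynomial (Fin 5) ℂ) := X_prime
    have : (X j : MvPolynomial (Fin 5) ℂ) ∣ r * b := ⟨k, hb.symm⟩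
    obtain ⟨b', rfl⟩ := (hp.dvd_or_dvd this).resolve_left hnd
    refine ⟨b', mul_left_cancel₀ hp.ne_zero ?_⟩
    linear_combination hb
  have h' := congrArg e h
  rw [map_mul, map_add, map_mul, map_mul, hr, finSuccEquiv_X_succ] at h'
  obtain ⟨A', B', hAB⟩ := nzd_poly hmon hy h'
  refine ⟨e.symm A', e.symm B', e.injective ?_⟩
  rw [map_add, map_mul, map_mul, hr, e.apply_symm_apply, e.apply_symm_apply, hAB]

lemma ker_g0 {P : S6} (hP : aeval g0 P = 0) : ∃ A B, P = rho1 * A + rho2 * B := by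
  let I : Ideal S6 := Ideal.span {rho1, rho2}
  let mk := Ideal.Quotient.mkₐ ℂ I
  have hm1 : mk rho1 = 0 := Ideal.Quotient.eq_zero_iff_mem.2 (Ideal.subset_span (by simp))
  have hm2 : mk rho2 = 0 := Ideal.Quotient.eq_zero_iff_mem.2 (Ideal.subset_span (by simp))
  let ι : Fin 4 → S6 := ![X 1, X 2, X 1 ^ 2 * X 5 + X 3 * X 2, X 0]
  obtain ⟨k, P', hk⟩ := clear_den (fun i => mk (X i)) (by simpa [rho1] using hm1)
    (by simpa only [rho2, map_sub, map_mul, map_add, map_pow, map_one, map_ofNat] using hm2) P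
  have e1 : aeval (fun i => mk (X i)) P = mk P := by
    have : (aeval (fun i => mk (X i)) : S6 →ₐ[ℂ] _) = mk := by
      apply algHom_ext; intro i; simp
    rw [this]
  have e2 : aeval ![mk (X 1), mk (X 2), mk (X 1) ^ 2 * mk (X 5) + mk (X 3) * mk (X 2), mk (X 0)] P'
      = mk (aeval ι P') := by
    have : (aeval ![mk (X 1), mk (X 2), mk (X 1) ^ 2 * mk (X 5) + mk (X 3) * mk (X 2), mk (X 0)] :
        MvPolynomial (Fin 4) ℂ →ₐ[ℂ] _) = mk.comp (aeval ι) := by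
      apply algHom_ext; intro i; fin_cases i <;> simp [ι]
    rw [this]; rfl
  rw [e1, e2, ← map_mul, ← map_pow, ← map_mul] at hk
  have hmem : (X 1 * X 2) ^ k * P - aeval ι P' ∈ I := (Ideal.Quotient.eq).1 hk
  obtain ⟨A, B, hAB⟩ := Ideal.mem_span_pair.1 hmem
  have e3 : aeval g0 (aeval ι P') = aeval yy P' := by
    have : (aeval g0 : S6 →ₐ[ℂ] Lam).comp (aeval ι) = aeval yy := by
      apply algHom_ext; intro i
      fin_cases i
      · simp [ι, g0]
      · simp [ι, g0]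
      · simpa [ι] using g0_T
      · simp [ι, g0]
    rw [← this]; rfl
  have hP' : P' = 0 := by
    apply aeval_yy_injective
    have := congrArg (aeval g0) hAB
    simp only [map_add, map_mul, map_sub, g0_rho1, g0_rho2, hP, e3] at this
    rw [map_zero]
    linear_combination this
  rw [hP', map_zero, sub_zero] at hAB
  have hk' : ∃ A B, (X 1 * X 2) ^ k * P = rho1 * A + rho2 * B := ⟨A, B, by linear_combination -hAB⟩
  clear hAB hk hmem e1 hP
  induction k with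
  | zero => simpa using hk'
  | succ k ih =>
    apply ih
    obtain ⟨A, B, h⟩ := hk'
    obtain ⟨A1, B1, h1⟩ := nzd_X 0 (Or.inl rfl) (P := X 2 * ((X 1 * X 2) ^ k * P)) (A := A) (B := B)
      (by rw [← h]; change X 1 * _ = _; ring)
    exact nzd_X 1 (Or.inr rfl) h1

/-! ### Weights -/

/-- weights on the Laurent ring -/
def wL (N : ℤ) : (Fin 4 → ℤ) →+ ℤ := wv ![-N, -6, 0, 4]

/-- weights on the six generators -/
def wS (N : ℤ) : Fin 6 → ℤ := ![4, -N, -6, 6, 12 + 2 * N, 2 * N]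

section
variable (a b c d : ℤ)

lemma hm_s0 (h : c = 0) (h' : 2 * b + 3 * d = 0) : Hm (wv ![a, b, c, d]) (-b) s0 := by
  have h0 := hm_yy ![a, b, c, d] 2
  have h1 := hm_yy ![a, b, c, d] 1
  have h3 := hm_yy ![a, b, c, d] 3
  have h4 := hm_yi ![a, b, c, d] 1
  simp only [Matrix.cons_val] at h0 h1 h3 h4
  exact (h4.mul ((((h0.pow 2).cast (by simp [h])).add (h0.cast h)).add
    (((h1.pow 2).mul (h3.pow 3)).cast (by push_cast; omega)))).cast (by simp)

lemma hm_g0 (h : c = 0) (h' : 2 * b + 3 * d = 0) (i : Fin 6) :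
    Hm (wv ![a, b, c, d]) (![d, a, b, -b, -2 * b - 2 * a, -2 * a] i) (g0 i) := by
  have hs := hm_s0 a b c d h h'
  have h0 := hm_yy ![a, b, c, d] 0
  have h1 := hm_yy ![a, b, c, d] 1
  have h2 := hm_yy ![a, b, c, d] 2
  have h3 := hm_yy ![a, b, c, d] 3
  have h4 := hm_yi ![a, b, c, d] 0
  simp only [Matrix.cons_val] at h0 h1 h2 h3 h4
  fin_cases i
  · exact h3
  · exact h0
  · exact h1
  · exact hs
  · exact (((h4.pow 2).mul ((hs.pow 2).add ((h3.pow 3).cast (by push_cast; omega)))).neg).cast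
      (by simp; ring)
  · exact ((h4.pow 2).mul ((h2.cast h).sub ((hs.mul h1).cast (by simp)))).cast (by simp)

end

lemma hm_g0_wL (N : ℤ) (i : Fin 6) : Hm (wL N) (wS N i) (g0 i) := by
  have := hm_g0 (-N) (-6) 0 4 rfl (by norm_num) i
  refine this.cast ?_
  fin_cases i <;> simp [wS]

lemma top_g1 {N : ℤ} (hN : 2 ≤ N) (i : Fin 6) :
    Le (wL N) (wS N i) (g1 i) ∧ pr (wL N) (wS N i) (g1 i) = g0 i := by
  have h0 := hm_yy ![-N, -6, 0, 4] 0
  have h1 := hm_yy ![-N, -6, 0, 4] 1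
  have h2 := hm_yy ![-N, -6, 0, 4] 2
  have h3 := hm_yy ![-N, -6, 0, 4] 3
  have h4 := hm_yi ![-N, -6, 0, 4] 0
  have h5 := hm_yi ![-N, -6, 0, 4] 1
  simp only [Matrix.cons_val] at h0 h1 h2 h3 h4 h5
  have hs : Hm (wL N) 6 s0 := hm_g0_wL N 3
  obtain ⟨δ, hδ⟩ : ∃ δ, δ = yi 1 * (yy 0 ^ 3 * yy 3 - yy 1 ^ 3) := ⟨_, rfl⟩
  have hδ' : Le (wL N) 5 δ := by
    rw [hδ]
    exact ((h5.le le_rfl).mul ((((h0.pow 3).mul h3).le (k := -1) (by push_cast; omega)).sub
      ((h1.pow 3).le (by norm_num)))).mono (by norm_num)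
  have key : ∀ i, Le (wL N) (wS N i - 1) (g1 i - g0 i) := by
    intro i
    fin_cases i
    · simpa [g0, g1] using le_zero' _
    · simpa [g0, g1] using le_zero' _
    · simpa [g0, g1] using le_zero' _
    · simpa [g0, g1, s1, ← hδ, wS] using hδ'
    · have e : g1 4 - g0 4 = yi 0 ^ 2 * (yy 1 - δ * (s0 + s0 + δ)) := by
        simp only [g0, g1, Matrix.cons_val, s1, ← hδ]; ring
      change Le _ (12 + 2 * N - 1) (g1 4 - g0 4)
      rw [e]
      exact (((h4.pow 2).le le_rfl).mul ((h1.le (k := 11) (by norm_num)).sub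
        ((hδ'.mul (((hs.add hs).le le_rfl).add (hδ'.mono (by norm_num)))).mono
          (by norm_num)))).mono (by push_cast; omega)
    · have e : g1 5 - g0 5 = -(yi 0 ^ 2 * (δ * yy 1)) := by
        simp only [g0, g1, Matrix.cons_val, s1, ← hδ]; ring
      change Le _ (2 * N - 1) (g1 5 - g0 5)
      rw [e]
      exact ((((h4.pow 2).le le_rfl).mul (hδ'.mul (h1.le le_rfl))).neg).mono (by push_cast; omega)
  have e : g1 i = g0 i + (g1 i - g0 i) := by ring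
  constructor
  · rw [e]; exact ((hm_g0_wL N i).le le_rfl).add ((key i).mono (by omega))
  · rw [e, map_add, (hm_g0_wL N i).pr_self, (key i).pr_eq_zero (by omega), add_zero]

lemma hm_X (wt : Fin 6 → ℤ) (i : Fin 6) : Hm (Finsupp.weight wt) (wt i) (X i : S6) :=
  (hm_single _ _).cast (by simp [Finsupp.weight_single])

lemma hm_rho1 (N : ℤ) : Hm (Finsupp.weight (wS N)) 12 rho1 :=
  ((((hm_X (wS N) 0).pow 3).cast (by simp [wS])).add
    (((hm_X (wS N) 3).pow 2).cast (by simp [wS]))).add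
    ((((hm_X (wS N) 1).pow 2).mul (hm_X (wS N) 4)).cast (by simp [wS]))

lemma hm_rho2 (N : ℤ) : Hm (Finsupp.weight (wS N)) (2 * N) rho2 :=
  (((((hm_X (wS N) 2).pow 2).mul (hm_X (wS N) 4)).cast (by simp [wS])).sub
    (((hm_one.add (((hm_two.mul (hm_X (wS N) 3)).mul (hm_X (wS N) 2)).cast (by simp [wS]))).mul
      (hm_X (wS N) 5)).cast (by simp [wS]))).sub
    ((((hm_X (wS N) 1).pow 2).mul ((hm_X (wS N) 5).pow 2)).cast (by simp [wS]; ring))

/-- leading forms of elements of the algebra are polynomials in the leading forms of the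
generators -/
lemma sagbi {N : ℤ} (hN : 2 ≤ N) (n : ℤ) (P : S6) (ha : Le (wL N) n (aeval g1 P)) :
    ∃ Q : S6, aeval g0 Q = pr (wL N) n (aeval g1 P) := by
  obtain ⟨k0, hk0⟩ := exists_le (Finsupp.weight (wS N)) P
  have hj : Le (Finsupp.weight (wS N)) (n + ((k0 - n).toNat : ℕ)) P := hk0.mono (by omega)
  generalize (k0 - n).toNat = j at hj
  clear hk0
  have htop := fun k P hP => aeval_top (w := wL N) (wS N) g1 g0 (fun i => (top_g1 hN i).1)
    (fun i => (top_g1 hN i).2) k P hP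
  induction j generalizing P with
  | zero => exact ⟨_, ((htop n P (by simpa using hj)).2).symm⟩
  | succ j ih =>
    obtain ⟨k, hk⟩ : ∃ k : ℤ, k = n + ((j + 1 : ℕ) : ℤ) := ⟨_, rfl⟩
    rw [← hk] at hj
    have h0 : aeval g0 (pr (Finsupp.weight (wS N)) k P) = 0 := by
      rw [← (htop k P hj).2, ha.pr_eq_zero (by omega)]
    obtain ⟨A, B, hAB⟩ := ker_g0 h0
    have hAB' : pr (Finsupp.weight (wS N)) k P =
        rho1 * pr (Finsupp.weight (wS N)) (k - 12) A +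
          rho2 * pr (Finsupp.weight (wS N)) (k - 2 * N) B := by
      rw [← pr_hm_mul (hm_rho1 N), ← pr_hm_mul (hm_rho2 N), add_sub_cancel, add_sub_cancel,
        ← map_add, ← hAB, (pr_mem _ _).pr_self]
    obtain ⟨A', hA'⟩ : ∃ A', A' = pr (Finsupp.weight (wS N)) (k - 12) A := ⟨_, rfl⟩
    obtain ⟨B', hB'⟩ : ∃ B', B' = pr (Finsupp.weight (wS N)) (k - 2 * N) B := ⟨_, rfl⟩
    rw [← hA', ← hB'] at hAB'
    have hA'' : Hm (Finsupp.weight (wS N)) (k - 12) A' := hA' ▸ pr_mem _ _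
    have hB'' : Hm (Finsupp.weight (wS N)) (k - 2 * N) B' := hB' ▸ pr_mem _ _
    have e : aeval g1 ((P - pr (Finsupp.weight (wS N)) k P) + X 2 * A' + X 1 * X 0 * B') =
        aeval g1 P := by
      have : (P - pr (Finsupp.weight (wS N)) k P) + X 2 * A' + X 1 * X 0 * B' =
          P - (rho1 - X 2) * A' - (rho2 - X 1 * X 0) * B' := by rw [hAB']; ring
      rw [this, map_sub, map_sub, map_mul, map_mul, g1_rho1, g1_rho2]; ring
    rw [← e] at ha ⊢
    apply ih _ ha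
    refine ((hj.sub_pr.mono (by omega)).add (((hm_X (wS N) 2).mul hA'').le ?_)).add
      ((((hm_X (wS N) 1).mul (hm_X (wS N) 0)).mul hB'').le ?_)
    · simp [wS]; omega
    · simp [wS]; omega

end Vale.Agent.P295
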