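import Vale.Agent.P295.Core

/-! The polynomial `HH` is a one-stable coordinate but not a coordinate. -/

set_option linter.unusedSectionVars false
set_option linter.unusedSimpArgs false
set_option linter.unusedVariables false

namespace Vale.Agent.P295

open MvPolynomial

lemma inj_of_surj {R : Type*} [CommRing R] [IsNoetherianRing R] (φ : R →+* R)
    (h : Function.Surjective φ) : Function.Injective φ := by
  let K : ℕ →o Ideal R :=
    { toFun := fun n => RingHom.ker (φ ^ n)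
      monotone' := monotone_nat_of_le_succ fun n a ha => by
        rw [RingHom.mem_ker] at ha ⊢
        rw [pow_succ', RingHom.mul_def, RingHom.comp_apply, ha, map_zero] }
  obtain ⟨n, hn⟩ := monotone_stabilizes_iff_noetherian.2 inferInstance K
  have hs : Function.Surjective (φ ^ n) := by rw [RingHom.coe_pow]; exact h.iterate n
  rw [injective_iff_map_eq_zero]
  intro a ha
  obtain ⟨b, rfl⟩ := hs a
  have h1 : b ∈ K (n + 1) := by
    change b ∈ RingHom.ker (φ ^ (n + 1))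
    rw [RingHom.mem_ker, pow_succ', RingHom.mul_def, RingHom.comp_apply, ha]
  rw [← hn (n + 1) (by omega)] at h1
  exact h1

section
variable {A : Type*} [CommRing A]

def fx (p s u F : A) : A := s ^ 2 + u ^ 3 + p ^ 2 * F

def fH (p s u F J : A) : A :=
  fx p s u F ^ 2 * F - (1 + 2 * s * fx p s u F) * J - p ^ 2 * J ^ 2 - p * u

def fa (p s w : A) : A := s + p ^ 2 * w

def fy (p s u F J w : A) : A := J - fx p s u F * w

def fc (p s u F J w : A) : A :=
  fx p s u F * F - w * (1 + 2 * fx p s u F * s) - p ^ 2 * fx p s u F * w ^ 2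
    - 2 * fa p s w * fy p s u F J w

def fb (p s u F J w : A) : A := u + p * fy p s u F J w ^ 2

def fx1 (p s u F J w : A) : A :=
  p * F - 2 * p * s * w - p ^ 3 * w ^ 2 - 3 * u ^ 2 * fy p s u F J w ^ 2
    - 3 * u * p * fy p s u F J w ^ 4 - p ^ 2 * fy p s u F J w ^ 6

def fk (p s u F J w : A) : A := fb p s u F J w - fx1 p s u F J w * fc p s u F J w

def fe (p s u F J w : A) : A :=
  F - 2 * s * w - p ^ 2 * w ^ 2 - p * fy p s u F J w ^ 6 + 3 * fb p s u F J w * fy p s u F J w ^ 4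
    + 3 * fb p s u F J w ^ 2 * (2 * fy p s u F J w * fk p s u F J w + p * fk p s u F J w ^ 2)

/-- the six new coordinates -/
def coords (p s u F J w : A) : Fin 6 → A :=
  ![fH p s u F J, p, fa p s w, fb p s u F J w, fc p s u F J w, fe p s u F J w]

lemma chain [Algebra ℂ A] (p s u F J w : A) (S : Subalgebra ℂ A)
    (hS : ∀ i, coords p s u F J w i ∈ S) :
    p ∈ S ∧ s ∈ S ∧ u ∈ S ∧ F ∈ S ∧ J ∈ S ∧ w ∈ S := by
  have mh : fH p s u F J ∈ S := hS 0
  have mp : p ∈ S := hS 1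
  have ma : fa p s w ∈ S := hS 2
  have mb : fb p s u F J w ∈ S := hS 3
  have mc : fc p s u F J w ∈ S := hS 4
  have me : fe p s u F J w ∈ S := hS 5
  have m2 : (2 : A) ∈ S := by exact_mod_cast natCast_mem S 2
  have m3 : (3 : A) ∈ S := by exact_mod_cast natCast_mem S 3
  obtain ⟨x, hx⟩ : ∃ x, x = fx p s u F := ⟨_, rfl⟩
  obtain ⟨h, hh⟩ : ∃ h, h = fH p s u F J := ⟨_, rfl⟩
  obtain ⟨a, ha⟩ : ∃ a, a = fa p s w := ⟨_, rfl⟩
  obtain ⟨y, hy⟩ : ∃ y, y = fy p s u F J w := ⟨_, rfl⟩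
  obtain ⟨c, hc⟩ : ∃ c, c = fc p s u F J w := ⟨_, rfl⟩
  obtain ⟨b, hb⟩ : ∃ b, b = fb p s u F J w := ⟨_, rfl⟩
  obtain ⟨x1, hx1⟩ : ∃ x1, x1 = fx1 p s u F J w := ⟨_, rfl⟩
  obtain ⟨k, hk⟩ : ∃ k, k = fk p s u F J w := ⟨_, rfl⟩
  obtain ⟨e, he⟩ : ∃ e, e = fe p s u F J w := ⟨_, rfl⟩
  rw [← hh] at mh
  rw [← ha] at ma
  rw [← hb] at mb
  rw [← hc] at mc
  rw [← he] at me
  rw [fe, ← hy, ← hb, ← hk] at he
  rw [fk, ← hb, ← hx1, ← hc] at hk
  rw [fx1, ← hy] at hx1
  rw [fb, ← hy] at hb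
  rw [fc, ← hx, ← ha, ← hy] at hc
  rw [fy, ← hx] at hy
  rw [fa] at ha
  rw [fH, ← hx] at hh
  rw [fx] at hx
  have e1 : x = a ^ 2 + b ^ 3 + p * x1 := by rw [hx, ha, hb, hx1]; ring
  have e2 : y = x * c - p * b - h := by rw [hc, hb, hh, ha, hy]; ring
  have e3 : (a ^ 2 + b ^ 3) * c - h = y + p * k := by
    rw [hk]; linear_combination -e2 - c * e1
  have e4 : x1 = p * e - 3 * b ^ 2 * ((a ^ 2 + b ^ 3) * c - h) ^ 2 := by
    rw [e3, he, hx1, hb]; ring
  have mx1 : x1 ∈ S := by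
    rw [e4]
    exact sub_mem (mul_mem mp me) (mul_mem (mul_mem m3 (pow_mem mb 2))
      (pow_mem (sub_mem (mul_mem (add_mem (pow_mem ma 2) (pow_mem mb 3)) mc) mh) 2))
  have mx : x ∈ S := by
    rw [e1]; exact add_mem (add_mem (pow_mem ma 2) (pow_mem mb 3)) (mul_mem mp mx1)
  have my : y ∈ S := by rw [e2]; exact sub_mem (sub_mem (mul_mem mx mc) (mul_mem mp mb)) mh
  have mk : k ∈ S := by rw [hk]; exact sub_mem mb (mul_mem mx1 mc)
  have mu : u ∈ S := by
    have : u = b - p * y ^ 2 := by rw [hb]; ring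
    rw [this]; exact sub_mem mb (mul_mem mp (pow_mem my 2))
  have mF0 : F - 2 * s * w - p ^ 2 * w ^ 2 ∈ S := by
    have : F - 2 * s * w - p ^ 2 * w ^ 2 =
        e + p * y ^ 6 - 3 * b * y ^ 4 - 3 * b ^ 2 * (2 * y * k + p * k ^ 2) := by rw [he]; ring
    rw [this]
    exact sub_mem (sub_mem (add_mem me (mul_mem mp (pow_mem my 6)))
      (mul_mem (mul_mem m3 mb) (pow_mem my 4))) (mul_mem (mul_mem m3 (pow_mem mb 2))
        (add_mem (mul_mem (mul_mem m2 my) mk) (mul_mem mp (pow_mem mk 2))))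
  have mw : w ∈ S := by
    have : w = x * (F - 2 * s * w - p ^ 2 * w ^ 2) - (c + 2 * a * y) := by rw [hc]; ring
    rw [this]
    exact sub_mem (mul_mem mx mF0) (add_mem mc (mul_mem (mul_mem m2 ma) my))
  have ms : s ∈ S := by
    have : s = a - p ^ 2 * w := by rw [ha]; ring
    rw [this]; exact sub_mem ma (mul_mem (pow_mem mp 2) mw)
  refine ⟨mp, ms, mu, ?_, ?_, mw⟩
  · have : F = (F - 2 * s * w - p ^ 2 * w ^ 2) + 2 * s * w + p ^ 2 * w ^ 2 := by ring
    rw [this]
    exact add_mem (add_mem mF0 (mul_mem (mul_mem m2 ms) mw)) (mul_mem (pow_mem mp 2) (pow_mem mw 2))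
  · have : J = y + x * w := by rw [hy]; ring
    rw [this]; exact add_mem my (mul_mem mx mw)

lemma map_fH {B G : Type*} [CommRing B] [FunLike G A B] [RingHomClass G A B] (φ : G)
    (p s u F J : A) : φ (fH p s u F J) = fH (φ p) (φ s) (φ u) (φ F) (φ J) := by
  simp only [fH, fx, map_sub, map_add, map_mul, map_pow, map_one, map_ofNat]

end

/-- the polynomial in the variables `p, s, u, F, J` -/
noncomputable def HH : MvPolynomial (Fin 5) ℂ := fH (X 0) (X 1) (X 2) (X 3) (X 4)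

/-- evaluation in the Laurent ring -/
noncomputable def ev : MvPolynomial (Fin 5) ℂ →ₐ[ℂ] Lam := aeval ![g1 1, g1 3, g1 0, g1 4, g1 5]

noncomputable def six : S6 →ₐ[ℂ] MvPolynomial (Fin 5) ℂ :=
  aeval ![X 2, X 0, fx (X 0) (X 1) (X 2) (X 3), X 1, X 3, X 4]

lemma ev_six (P : S6) : ev (six P) = aeval g1 P := by
  have : ev.comp six = aeval g1 := by
    apply algHom_ext
    intro i
    fin_cases i
    · simp [ev, six]
    · simp [ev, six]
    · have := g1_rho1
      simp [rho1] at this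
      simp [ev, six, fx]
      linear_combination this
    · simp [ev, six]
    · simp [ev, six]
    · simp [ev, six]
  rw [← this]; rfl

lemma six_rho2 : six (rho2 - X 1 * X 0) = HH := by
  simp only [six, rho2, HH, fH, map_sub, map_add, map_mul, map_pow, map_one, map_ofNat, aeval_X,
    Matrix.cons_val]

lemma ev_HH : ev HH = 0 := by rw [← six_rho2, ev_six, g1_rho2]

theorem core5 (π : MvPolynomial (Fin 5) ℂ →ₐ[ℂ] MvPolynomial (Fin 4) ℂ)
    (hπ : Function.Surjective π) (h : π HH = 0)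
    (θ : MvPolynomial (Fin 4) ℂ →ₐ[ℂ] Lam) (hθ : ∀ P, θ (π P) = ev P) : False := by
  refine core (π.comp six) (hπ.comp ?_) ?_ ?_ θ ?_
  · intro P
    refine ⟨rename ![1, 3, 0, 4, 5] P, ?_⟩
    have : six.comp (rename ![1, 3, 0, 4, 5]) = AlgHom.id ℂ _ := by
      apply algHom_ext
      intro i
      fin_cases i <;> simp [six]
    exact DFunLike.congr_fun this P
  · have : six (rho1 - X 2) = 0 := by simp [six, rho1, fx]; ring
    rw [AlgHom.comp_apply, this, map_zero]
  · rw [AlgHom.comp_apply, six_rho2, h]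
  · intro P
    rw [AlgHom.comp_apply, hθ, ev_six]

theorem not_coord (g : Fin 5 → MvPolynomial (Fin 5) ℂ) (i : Fin 5) (hi : g i = HH)
    (hg : Algebra.adjoin ℂ (Set.range g) = ⊤) : False := by
  have hs : Function.Surjective (aeval g : MvPolynomial (Fin 5) ℂ →ₐ[ℂ] _) := by
    rw [← AlgHom.range_eq_top, ← Algebra.adjoin_range_eq_range_aeval, hg]
  have hinj := inj_of_surj (aeval g : MvPolynomial (Fin 5) ℂ →ₐ[ℂ] _).toRingHom hs
  let φ := AlgEquiv.ofBijective (aeval g : MvPolynomial (Fin 5) ℂ →ₐ[ℂ] _) ⟨hinj, hs⟩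
  have hφ : ∀ l, φ (X l) = g l := fun l => by simp [φ]
  let κ : MvPolynomial (Fin 5) ℂ →ₐ[ℂ] MvPolynomial (Fin 4) ℂ :=
    aeval (Fin.insertNth (α := fun _ => MvPolynomial (Fin 4) ℂ) i 0 X)
  have hκ : Function.Surjective κ := by
    intro P
    refine ⟨rename i.succAbove P, ?_⟩
    have : κ.comp (rename i.succAbove) = AlgHom.id ℂ _ := by
      apply algHom_ext
      intro l
      simp [κ]
    exact DFunLike.congr_fun this P
  let θ : MvPolynomial (Fin 4) ℂ →ₐ[ℂ] Lam := aeval fun l => ev (g (i.succAbove l))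
  have hθ : θ.comp κ = ev.comp φ.toAlgHom := by
    apply algHom_ext
    intro l
    refine Fin.succAboveCases i ?_ (fun l => ?_) l
    · simp [κ, hφ, hi, ev_HH]
    · simp [κ, hφ, θ]
  refine core5 (κ.comp φ.symm.toAlgHom) (hκ.comp φ.symm.surjective) ?_ θ ?_
  · have : φ.symm HH = X i := by rw [← hi, ← hφ, φ.symm_apply_apply]
    simp [this, κ]
  · intro P
    have := DFunLike.congr_fun hθ (φ.symm P)
    simpa using this

theorem stable_coord : ∃ g : Fin (5 + 1) → MvPolynomial (Fin (5 + 1)) ℂ,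
    g 0 = rename (Fin.castAdd 1) HH ∧ Algebra.adjoin ℂ (Set.range g) = ⊤ := by
  refine ⟨coords (X 0) (X 1) (X 2) (X 3) (X 4) (X 5), ?_, ?_⟩
  · rw [HH, map_fH]
    simp only [rename_X]
    rfl
  · obtain ⟨a0, a1, a2, a3, a4, a5⟩ := chain (X 0 : MvPolynomial (Fin 6) ℂ) (X 1) (X 2) (X 3)
      (X 4) (X 5) (Algebra.adjoin ℂ (Set.range (coords (X 0) (X 1) (X 2) (X 3) (X 4) (X 5))))
      (fun i => Algebra.subset_adjoin ⟨i, rfl⟩)
    rw [eq_top_iff, ← adjoin_range_X, Algebra.adjoin_le_iff]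
    rintro _ ⟨i, rfl⟩
    fin_cases i
    exacts [a0, a1, a2, a3, a4, a5]

/-! ### The cancellation problem -/

/-- the coordinate ring of the hypersurface -/
abbrev AH := MvPolynomial (Fin 5) ℂ ⧸ Ideal.span {HH}

theorem not_iso : IsEmpty (AH ≃ₐ[ℂ] MvPolynomial (Fin 4) ℂ) := by
  refine ⟨fun ψ => ?_⟩
  let mk := Ideal.Quotient.mkₐ ℂ (Ideal.span {HH})
  let lf : AH →ₐ[ℂ] Lam := Ideal.Quotient.liftₐ _ ev (by
    intro a ha
    obtain ⟨b, rfl⟩ := Ideal.mem_span_singleton.1 ha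
    rw [map_mul, ev_HH, zero_mul])
  refine core5 (ψ.toAlgHom.comp mk) (ψ.surjective.comp (Ideal.Quotient.mkₐ_surjective ℂ _))
    ?_ (lf.comp ψ.symm.toAlgHom) ?_
  · have : mk HH = 0 := Ideal.Quotient.eq_zero_iff_mem.2 (Ideal.subset_span rfl)
    rw [AlgHom.comp_apply, this, map_zero]
  · intro P
    simp [lf, mk]
    rfl

theorem cyl_iso : Nonempty (Polynomial AH ≃ₐ[ℂ] MvPolynomial (Fin 5) ℂ) := by
  let R := MvPolynomial (Fin 5) ℂ
  let c : Fin 6 → Polynomial R := coords (Polynomial.C (X 0)) (Polynomial.C (X 1))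
    (Polynomial.C (X 2)) (Polynomial.C (X 3)) (Polynomial.C (X 4)) Polynomial.X
  let φ : MvPolynomial (Fin 6) ℂ →ₐ[ℂ] Polynomial R := aeval c
  obtain ⟨a0, a1, a2, a3, a4, a5⟩ := chain (Polynomial.C (X 0) : Polynomial R)
    (Polynomial.C (X 1)) (Polynomial.C (X 2)) (Polynomial.C (X 3)) (Polynomial.C (X 4))
    Polynomial.X φ.range (fun i => ⟨X i, by simp [φ, c]⟩)
  have hC : ∀ r : R, Polynomial.C r ∈ φ.range := by
    intro r
    induction r using MvPolynomial.induction_on with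
    | C z => exact φ.range.algebraMap_mem z
    | add p q hp hq => rw [map_add]; exact add_mem hp hq
    | mul_X p i hp =>
      rw [map_mul]
      refine mul_mem hp ?_
      fin_cases i
      exacts [a0, a1, a2, a3, a4]
  have hs : Function.Surjective φ := by
    intro q
    change q ∈ φ.range
    induction q using Polynomial.induction_on with
    | C r => exact hC r
    | add p q hp hq => exact add_mem hp hq
    | monomial n r _ => exact mul_mem (hC r) (pow_mem a5 _)
  have hinj : Function.Injective φ := by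
    have := inj_of_surj ((finSuccEquiv ℂ 5).symm.toAlgHom.comp φ).toRingHom
      ((finSuccEquiv ℂ 5).symm.surjective.comp hs)
    exact Function.Injective.of_comp (f := (finSuccEquiv ℂ 5).symm) this
  have h0 : φ (X 0) = Polynomial.C HH := by
    rw [HH, map_fH]
    simp only [φ, aeval_X]
    rfl
  let mk := Ideal.Quotient.mkₐ ℂ (Ideal.span {HH})
  let μ : Polynomial R →ₐ[ℂ] Polynomial AH := Polynomial.mapAlgHom mk
  have hμ : Function.Surjective μ :=
    Polynomial.map_surjective _ (Ideal.Quotient.mkₐ_surjective ℂ _)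
  have hμ0 : μ (Polynomial.C HH) = 0 := by
    have : mk HH = 0 := Ideal.Quotient.eq_zero_iff_mem.2 (Ideal.subset_span rfl)
    simp [μ, this]
  let Ψ : R →ₐ[ℂ] Polynomial AH := (μ.comp φ).comp (rename Fin.succ)
  let κ : MvPolynomial (Fin 6) ℂ →ₐ[ℂ] R := aeval (Fin.cons 0 X : Fin 6 → R)
  have hκ : Ψ.comp κ = μ.comp φ := by
    apply algHom_ext
    intro i
    refine Fin.cases ?_ (fun l => ?_) i
    · have k0 : κ (X 0) = 0 := by simp [κ]
      change Ψ (κ (X 0)) = μ (φ (X 0))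
      rw [k0, map_zero, h0, hμ0]
    · have k1 : κ (X l.succ) = X l := by simp [κ]
      change μ (φ (rename Fin.succ (κ (X l.succ)))) = μ (φ (X l.succ))
      rw [k1]
      congr 2
      exact rename_X _ _
  have hκ' : ∀ q : R, κ (rename Fin.succ q) = q := by
    have : κ.comp (rename Fin.succ) = AlgHom.id ℂ _ := by
      apply algHom_ext
      intro l
      simp [κ]
    exact fun q => DFunLike.congr_fun this q
  refine ⟨(AlgEquiv.ofBijective Ψ ⟨?_, ?_⟩).symm⟩
  · rw [injective_iff_map_eq_zero]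
    intro q hq
    have h1 : Polynomial.C HH ∣ φ (rename Fin.succ q) := by
      rw [Polynomial.C_dvd_iff_dvd_coeff]
      intro n
      rw [← Ideal.mem_span_singleton, ← Ideal.Quotient.eq_zero_iff_mem]
      have := congrArg (fun z => Polynomial.coeff z n) hq
      simpa [Ψ, μ, mk] using this
    obtain ⟨z, hz⟩ := h1
    obtain ⟨z', rfl⟩ := hs z
    rw [← h0, ← map_mul] at hz
    rw [← hκ' q, hinj hz]
    simp [κ]
  · apply Function.Surjective.of_comp (g := κ)
    have : (Ψ ∘ κ) = μ ∘ φ := by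
      funext q
      exact DFunLike.congr_fun hκ q
    rw [this]
    exact hμ.comp hs

end Vale.Agent.P295
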